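import Crest.Agent.R165.T.Tube

/-! # R165/T/Curve: a regular `C²` simple closed curve has two-sided balls -/

set_option autoImplicit false
open Set Metric Filter Topology Complex Function
open scoped ComplexConjugate

namespace Crest.Agent.R165.T

theorem ball_ineq {w v e μ : ℂ} {u ρ : ℝ} (hw : w = u * v + e) (hμ : ‖μ‖ = 1) (ho : (v * conj μ).re = 0)
    (hρ : 0 ≤ ρ) (h : 2 * ρ * ‖e‖ ≤ ‖w‖ ^ 2) : ρ ≤ ‖w - ρ * μ‖ := by
  refine le_of_sq_le_sq ?_ (norm_nonneg _)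
  have h1 : (w * conj ((ρ : ℂ) * μ)).re = ρ * (e * conj μ).re := by
    rw [hw, map_mul, conj_ofReal, show (u * v + e) * (ρ * conj μ) = (ρ * u : ℝ) * (v * conj μ) + ρ * (e * conj μ) by
      push_cast; ring, add_re, re_ofReal_mul, re_ofReal_mul, ho, mul_zero, zero_add]
  have h2 : (e * conj μ).re ≤ ‖e‖ := (re_le_norm _).trans_eq (by rw [norm_mul, norm_conj, hμ, mul_one])
  rw [Complex.sq_norm, normSq_sub, h1, ← Complex.sq_norm, ← Complex.sq_norm, norm_mul, hμ, norm_real,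
    Real.norm_of_nonneg hρ]
  nlinarith [mul_le_mul_of_nonneg_left h2 hρ]

theorem periodic_deriv {γ : ℝ → ℂ} (hp : Periodic γ 1) : Periodic (deriv γ) 1 := fun x => by
  rw [← deriv_comp_add_const]; exact congrArg (deriv · x) (funext hp)

theorem periodic_fract {γ : ℝ → ℂ} (hp : Periodic γ 1) (t : ℝ) : γ (Int.fract t) = γ t := by
  simpa only [mul_one, Int.self_sub_floor] using hp.sub_int_mul_eq (x := t) ⌊t⌋

theorem exists_tube {γ : ℝ → ℂ} (hc : ContDiff ℝ 2 γ) (hp : Periodic γ 1) (hi : InjOn γ (Ico 0 1))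
    (h0 : ∀ t, deriv γ t ≠ 0) : ∃ n ρ, Tube γ n ρ := by
  have hc1 : ContDiff ℝ 1 (deriv γ) := ContDiff.deriv' (n := 1) hc
  have hd : Differentiable ℝ γ := hc.differentiable (by norm_num)
  have hd1 : Differentiable ℝ (deriv γ) := hc1.differentiable (by norm_num)
  obtain ⟨M, hM0, hM⟩ := ((periodic_deriv (periodic_deriv hp)).isBounded_of_continuous one_ne_zero
    hc1.continuous_deriv_one).subset_ball_lt 0 0
  obtain ⟨m, hm0, hm⟩ := ((periodic_deriv hp).compact_of_continuous one_ne_zero hc1.continuous).exists_forall_le'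
    (f := fun z => ‖z‖) continuous_norm.continuousOn (a := 0) (by rintro _ ⟨t, rfl⟩; exact norm_pos_iff.2 (h0 t))
  have hM' : ∀ t, ‖deriv (deriv γ) t‖ ≤ M := fun t => (mem_ball_zero_iff.1 (hM ⟨t, rfl⟩)).le
  have hm' : ∀ t, m ≤ ‖deriv γ t‖ := fun t => hm _ ⟨t, rfl⟩
  have hL : ∀ t s, ‖deriv γ s - deriv γ t‖ ≤ M * |s - t| := fun t s =>
    convex_univ.norm_image_sub_le_of_norm_deriv_le (fun x _ => hd1 x) (fun x _ => hM' x) trivial trivial
  have hT : ∀ t u : ℝ, ‖γ (t + u) - γ t - u * deriv γ t‖ ≤ M * |u| * |u| := fun t u => by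
    have := (convex_closedBall t |u|).norm_image_sub_le_of_norm_hasDerivWithin_le (𝕜 := ℝ)
      (f := fun x : ℝ => γ x - x * deriv γ t) (f' := fun x => deriv γ x - deriv γ t) (C := M * |u|)
      (fun x _ => ((hd x).hasDerivAt.sub (by
        simpa using (hasDerivAt_id x).ofReal_comp.mul_const (deriv γ t))).hasDerivWithinAt)
      (fun x hx => (hL t x).trans (mul_le_mul_of_nonneg_left (mem_closedBall.1 hx) hM0.le))
      (mem_closedBall_self (abs_nonneg u)) (y := t + u) (mem_closedBall.2 (by simp))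
    rw [add_sub_cancel_left, Real.norm_eq_abs] at this
    refine le_of_eq_of_le ?_ this
    congr 1; push_cast; ring
  obtain ⟨δ, hδ, hδ1, hδm⟩ : ∃ δ : ℝ, 0 < δ ∧ δ < 1 ∧ M * δ ≤ m / 2 :=
    ⟨min (1 / 2) (m / (2 * M)), by positivity, (min_le_left _ _).trans_lt (by norm_num),
      (mul_le_mul_of_nonneg_left (min_le_right _ _) hM0.le).trans_eq (by field_simp)⟩
  obtain ⟨η, hη, hη'⟩ := ((isCompact_Icc (a := (0 : ℝ)) (b := 1)).prod (isCompact_Icc (a := δ) (b := 1 - δ))).exists_forall_le'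
    (f := fun p : ℝ × ℝ => ‖γ (p.1 + p.2) - γ p.1‖)
    ((hc.continuous.comp (continuous_fst.add continuous_snd)).sub (hc.continuous.comp continuous_fst)).norm.continuousOn
    (a := 0) (fun p hp' => norm_pos_iff.2 (sub_ne_zero.2 fun e => by
      rw [← periodic_fract hp, ← periodic_fract hp p.1] at e
      obtain ⟨k, hk⟩ := Int.fract_eq_fract.1 (hi ⟨Int.fract_nonneg _, Int.fract_lt_one _⟩
        ⟨Int.fract_nonneg _, Int.fract_lt_one _⟩ e)
      rw [add_sub_cancel_left] at hk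
      have h1 : (0 : ℝ) < k := by linarith [hp'.2.1]
      have h2 : (k : ℝ) < 1 := by linarith [hp'.2.2]
      have h1' : 0 < k := by exact_mod_cast h1
      have h2' : k < 1 := by exact_mod_cast h2
      omega))
  obtain ⟨ρ, hρ, hρη, hρm⟩ : ∃ ρ : ℝ, 0 < ρ ∧ 2 * ρ ≤ η ∧ 8 * ρ * M ≤ m ^ 2 :=
    ⟨min (η / 2) (m ^ 2 / (8 * M)), by positivity, by linarith [min_le_left (η / 2) (m ^ 2 / (8 * M))], by
      have := (le_div_iff₀ (by positivity)).1 (min_le_right (η / 2) (m ^ 2 / (8 * M)))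
      linarith⟩
  have key : ∀ t s μ, ‖μ‖ = 1 → (deriv γ t * conj μ).re = 0 → ρ ≤ ‖γ s - γ t - ρ * μ‖ := fun t s μ hμ ho => by
    obtain ⟨u, hu1, hu2, hu⟩ : ∃ u, -δ ≤ u ∧ u < 1 - δ ∧ γ s = γ (t + u) := by
      refine ⟨Int.fract (s - t + δ) - δ, by linarith [Int.fract_nonneg (s - t + δ)],
        by linarith [Int.fract_lt_one (s - t + δ)], ?_⟩
      rw [← hp.sub_int_mul_eq (x := s) ⌊s - t + δ⌋, ← Int.self_sub_floor]
      congr 1; ring
    rw [hu]
    rcases le_total u δ with h | h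
    · have h1 := hT t u
      have h2 : |u| ≤ δ := abs_le.2 ⟨hu1, h⟩
      have h3 : m / 2 * |u| ≤ ‖γ (t + u) - γ t‖ := by
        have h4 := norm_sub_norm_le ((u : ℂ) * deriv γ t) (γ (t + u) - γ t)
        rw [norm_sub_rev (_ * _), norm_mul, norm_real, Real.norm_eq_abs] at h4
        have h5 := mul_le_mul_of_nonneg_left (hm' t) (abs_nonneg u)
        have h6 := mul_le_mul_of_nonneg_right ((mul_le_mul_of_nonneg_left h2 hM0.le).trans hδm) (abs_nonneg u)
        linarith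
      refine ball_ineq (u := u) (v := deriv γ t) (e := γ (t + u) - γ t - u * deriv γ t) (by ring) hμ ho hρ.le ?_
      have h4 := pow_le_pow_left₀ (by positivity) h3 2
      have h5 := mul_le_mul_of_nonneg_left h1 (show 0 ≤ 2 * ρ by positivity)
      have h6 := mul_le_mul_of_nonneg_right hρm (sq_nonneg |u|)
      nlinarith
    · have h1 := hη' (Int.fract t, u) ⟨⟨Int.fract_nonneg _, (Int.fract_lt_one _).le⟩, h, hu2.le⟩
      have h2 : γ (Int.fract t + u) = γ (t + u) := by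
        rw [← hp.sub_int_mul_eq (x := t + u) ⌊t⌋, ← Int.self_sub_floor]; congr 1; ring
      simp only [periodic_fract hp, h2] at h1
      refine ball_ineq (u := 0) (v := deriv γ t) (e := γ (t + u) - γ t) (by simp) hμ ho hρ.le ?_
      nlinarith [norm_nonneg (γ (t + u) - γ t)]
  have hn : ∀ t, ‖I * deriv γ t / ‖deriv γ t‖‖ = 1 := fun t => by
    rw [norm_div, norm_mul, norm_I, one_mul, norm_real, norm_norm, div_self (norm_ne_zero_iff.2 (h0 t))]
  have ho : ∀ t, (deriv γ t * conj (I * deriv γ t / ‖deriv γ t‖)).re = 0 := fun t => by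
    rw [map_div₀, conj_ofReal, ← mul_div_assoc, div_ofReal_re, div_eq_zero_iff]
    left; simp; ring
  refine ⟨fun t => I * deriv γ t / ‖deriv γ t‖, ρ, hc.continuous,
    (continuous_const.mul hc1.continuous).div (continuous_ofReal.comp hc1.continuous.norm)
      (fun t => ofReal_ne_zero.2 (norm_ne_zero_iff.2 (h0 t))), hn,
    hp.compact_of_continuous one_ne_zero hc.continuous, hρ, fun t s => ?_, fun t s => ?_⟩
  · rw [← sub_sub]; exact key t s _ (hn t) (ho t)
  · have := key t s (-(I * deriv γ t / ‖deriv γ t‖)) (by rw [norm_neg, hn]) (by rw [map_neg, mul_neg, neg_re, ho, neg_zero])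
    convert this using 2; ring

theorem jordan_main {γ : ℝ → ℂ} (hc : ContDiff ℝ 2 γ) (hp : Periodic γ 1) (hi : InjOn γ (Ico 0 1))
    (h0 : ∀ t, deriv γ t ≠ 0) {D : Set ℂ}
    (hD : D = {z : ℂ | z ∉ range γ ∧ Bornology.IsBounded (connectedComponentIn (range γ)ᶜ z)}) (hne : D.Nonempty) :
    IsOpen D ∧ Bornology.IsBounded D ∧ (∃ ρ, 0 < ρ ∧ TB D ρ) ∧ IsPreconnected (closure D)ᶜ ∧
    ∃ φ : ℂ → ℂ, DifferentiableOn ℂ φ D ∧ BijOn φ D (ball 0 1) ∧
      ∀ ζ ∈ frontier D, ∃ ζ' : ℂ, Tendsto φ (𝓝[D] ζ) (𝓝 ζ') := by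
  obtain ⟨n, ρ, h⟩ := exists_tube hc hp hi h0
  obtain ⟨hb, ho, hcon, hT, hpre, hE⟩ := h.dom hD hne
  obtain ⟨z₀, hz₀⟩ := hne
  obtain ⟨φ, hd, hinj, him, -⟩ := riemann_mapping' ho hcon hE hb hz₀
  have hbij : BijOn φ D (ball 0 1) := him ▸ hinj.bijOn_image
  exact ⟨ho, hb, ⟨ρ, h.pos, hT⟩, hpre, φ, hd, hbij, fun ζ hζ =>
    bdry_limit ho (fun e => NormedSpace.unbounded_univ ℝ ℂ (e ▸ hb)) h.pos hT hd hbij hζ⟩

end Crest.Agent.R165.T
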