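import Crest.Agent.R165.T.Path

/-! # R165/T/Reg: lattice regularity of discretised domains -/

set_option autoImplicit false
open Set Metric Filter Topology Complex Function
open Crest.ProbabilityR.IsingModel

namespace Crest.Agent.R165.T

/-- `y` is a corner of the cell with lower-left corner `x` -/
def InC (x y : Site) : Prop := (y.1 = x.1 ∨ y.1 = x.1 + 1) ∧ (y.2 = x.2 ∨ y.2 = x.2 + 1)

def Bond (E : Set Edge) (b b' : Site) : Prop :=
  ∃ e, e ∉ E ∧ ((edgeB0 e = b ∧ edgeB1 e = b') ∨ (edgeB0 e = b' ∧ edgeB1 e = b))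

/-- the edge set `E` is read off from the site set `T` -/
structure Sand (E : Set Edge) (T : Set Site) (v : Site) : Prop where
  ins : ∀ e : Edge, (∀ y, InC e.1 y → y ∈ T) → e ∈ E
  out : ∀ e : Edge, (∀ y, InC e.1 y → y ∉ T) → e ∉ E
  hv : InC 0 v
  frz : ∀ b, FrozenB E b → ∃ y, y ∉ T ∧ InC y b ∧ Relation.ReflTransGen (FrozenStep E {x | InC y x}) b (y + v)
  step : ∀ y α, y ∉ T → y + dv α ∉ T → Bond E (y + v) (y + dv α + v)

theorem frozen_symm {E : Set Edge} {W : Set Site} {x y : Site} (h : Relation.ReflTransGen (FrozenStep E W) x y) :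
    Relation.ReflTransGen (FrozenStep E W) y x := by
  induction h with
  | refl => exact .refl
  | tail _ h2 ih => exact .head ⟨h2.2.1, h2.1, h2.2.2.imp fun _ h => ⟨h.1, h.2.symm⟩⟩ ih

theorem frozen_mono {E : Set Edge} {W W' : Set Site} (hW : W ⊆ W') {x y : Site}
    (h : Relation.ReflTransGen (FrozenStep E W) x y) : Relation.ReflTransGen (FrozenStep E W') x y :=
  Relation.ReflTransGen.mono (fun _ _ h => ⟨hW h.1, hW h.2.1, h.2.2⟩) _ _ h

theorem Sand.lift {E : Set Edge} {T : Set Site} {v : Site} (h : Sand E T v) {A W : Set Site}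
    (hA : ∀ y ∈ A, y ∉ T ∧ y + v ∈ W) {x y : Site} (hc : Conn A x y) :
    Relation.ReflTransGen (FrozenStep E W) (x + v) (y + v) :=
  Relation.ReflTransGen.lift (p := FrozenStep E W) (· + v) (by
    rintro b _ ⟨h1, h2, α, rfl⟩
    exact ⟨(hA _ h1).2, (hA _ h2).2, h.step b α (hA _ h1).1 (hA _ h2).1⟩) _ _ hc

theorem sand_plus (T : Set Site) : Sand (ePlus T) T 0 where
  ins := fun e h => Or.inr (h _ (by simp [InC, edgeB1]))
  out := fun e h he => he.elim (h _ (by obtain ⟨x, j⟩ := e; fin_cases j <;> simp [InC, edgeB0]))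
    (h _ (by simp [InC, edgeB1]))
  hv := by simp [InC]
  frz := fun b ⟨e, he, hb⟩ => ⟨b, fun h => he (by
    rcases hb with rfl | rfl; exacts [Or.inl h, Or.inr h]), by simp [InC], by rw [add_zero]⟩
  step := fun y α h1 h2 => by
    fin_cases α
    · exact ⟨(y - (0, 1), 1), by simpa [ePlus, edgeB0, edgeB1, dv, sub_add_eq_add_sub, add_sub_assoc] using ⟨h1, h2⟩,
        Or.inl (by simp [edgeB0, edgeB1, dv, Prod.ext_iff])⟩
    · exact ⟨(y - (1, 0), 0), by simpa [ePlus, edgeB0, edgeB1, dv, sub_add_eq_add_sub, add_sub_assoc] using ⟨h1, h2⟩,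
        Or.inl (by simp [edgeB0, edgeB1, dv, Prod.ext_iff])⟩
    · exact ⟨(y - (1, 1), 1), by simpa [ePlus, edgeB0, edgeB1, dv, sub_add_eq_add_sub, add_sub_assoc] using ⟨h2, h1⟩,
        Or.inr (by simp [edgeB0, edgeB1, dv, Prod.ext_iff]; ring)⟩
    · exact ⟨(y - (1, 1), 0), by simpa [ePlus, edgeB0, edgeB1, dv, sub_add_eq_add_sub, add_sub_assoc] using ⟨h2, h1⟩,
        Or.inr (by simp [edgeB0, edgeB1, dv, Prod.ext_iff]; ring)⟩

theorem dual_corner {T : Set Site} {y b : Site} (hy : y ∉ T) (hb : InC y b) :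
    Relation.ReflTransGen (FrozenStep (eDual T) {x | InC y x}) b (y + (1, 1)) := by
  have h1 : FrozenStep (eDual T) {x | InC y x} (y + (1, 0)) (y + (1, 1)) :=
    ⟨by simp [InC], by simp [InC], (y, 0), fun h => hy h.1, Or.inl ⟨rfl, rfl⟩⟩
  have h2 : FrozenStep (eDual T) {x | InC y x} (y + (0, 1)) (y + (1, 1)) :=
    ⟨by simp [InC], by simp [InC], (y, 1), fun h => hy h.1, Or.inl ⟨rfl, rfl⟩⟩
  have h3 : FrozenStep (eDual T) {x | InC y x} y (y + (0, 1)) :=
    ⟨by simp [InC], by simp [InC], (y - (1, 0), 0), fun h => hy (by simpa [uv] using h.2),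
      Or.inl (by simp [edgeB0, edgeB1, Prod.ext_iff])⟩
  rcases hb with ⟨a | a, c | c⟩
  · rw [show b = y from Prod.ext a c]; exact .head h3 (.single h2)
  · rw [show b = y + (0, 1) from Prod.ext (by simpa using a) c]; exact .single h2
  · rw [show b = y + (1, 0) from Prod.ext a (by simpa using c)]; exact .single h1
  · rw [show b = y + (1, 1) from Prod.ext a c]

theorem sand_dual (T : Set Site) : Sand (eDual T) T (1, 1) where
  ins := fun e h => ⟨h _ (by simp [InC]), h _ (by obtain ⟨x, j⟩ := e; fin_cases j <;> simp [InC, uv])⟩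
  out := fun e h he => h _ (by simp [InC]) he.1
  hv := by simp [InC]
  frz := fun b ⟨⟨x, j⟩, he, hb⟩ => by
    rcases not_and_or.1 he with h | h
    · have : InC x b := by fin_cases j <;> rcases hb with rfl | rfl <;> simp [InC, edgeB0, edgeB1]
      exact ⟨_, h, this, dual_corner h this⟩
    · have : InC (x + uv j) b := by fin_cases j <;> rcases hb with rfl | rfl <;> simp [InC, edgeB0, edgeB1, uv]
      exact ⟨_, h, this, dual_corner h this⟩
  step := fun y α h1 h2 => by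
    fin_cases α
    · exact ⟨(y + dv 0, 1), fun h => h2 h.1, Or.inl (by simp [edgeB0, edgeB1, dv, Prod.ext_iff])⟩
    · exact ⟨(y + dv 1, 0), fun h => h2 h.1, Or.inl (by simp [edgeB0, edgeB1, dv, Prod.ext_iff])⟩
    · exact ⟨(y, 1), fun h => h1 h.1, Or.inr (by simp [edgeB0, edgeB1, dv, Prod.ext_iff])⟩
    · exact ⟨(y, 0), fun h => h1 h.1, Or.inr (by simp [edgeB0, edgeB1, dv, Prod.ext_iff])⟩

theorem InC.norm {x y : Site} (h : InC x y) : ‖toC y - pos x‖ ≤ 3 / 4 := by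
  refine norm_le_of_re_im (r := 1 / 2) ?_ ?_ (by norm_num) (by norm_num)
  · rcases h.1 with h | h <;> norm_num [toC, pos, h, abs_le]
  · rcases h.2 with h | h <;> norm_num [toC, pos, h, abs_le]

theorem Sand.reg {E : Set Edge} {G : Set ℂ} {v : Site} (h : Sand E {z | toC z ∈ G} v) (ho : IsOpen G) {ρ : ℝ}
    (hT : TB G ρ) (hρ : 3000 ≤ ρ) (hc : IsPreconnected (closure G)ᶜ) : Reg E (ρ / 4) := by
  have hf : ∀ b, BdryB E b → ∃ ζ ν, TBat G (ρ / 4 + 1) ζ ν ∧ ‖ζ - pos b‖ ≤ 4 := by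
    rintro b ⟨hb, e, he, hs⟩
    obtain ⟨y, hy, hyb, -⟩ := h.frz b hb
    obtain ⟨y', hy', hy'G⟩ : ∃ y', InC e.1 y' ∧ toC y' ∈ G := by
      by_contra! hn
      exact h.out e hn he
    have key : ∀ w : Site, -2 ≤ w.1 - b.1 → w.1 - b.1 ≤ 3 → -2 ≤ w.2 - b.2 → w.2 - b.2 ≤ 3 → ‖toC w - pos b‖ ≤ 4 :=
      fun w h1 h2 h3 h4 => by
        have h1' : (-2 : ℝ) ≤ w.1 - b.1 := by exact_mod_cast h1
        have h2' : (w.1 : ℝ) - b.1 ≤ 3 := by exact_mod_cast h2
        have h3' : (-2 : ℝ) ≤ w.2 - b.2 := by exact_mod_cast h3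
        have h4' : (w.2 : ℝ) - b.2 ≤ 3 := by exact_mod_cast h4
        refine norm_le_of_re_im (r := 5 / 2) ?_ ?_ (by norm_num) (by norm_num) <;>
          simp [toC, pos, abs_le] <;> constructor <;> linarith
    simp only [InC, supd] at hyb hy' hs
    obtain ⟨ζ, hζ, h1⟩ := exists_frontier ho hy'G hy (key y' (by omega) (by omega) (by omega) (by omega))
      (key y (by omega) (by omega) (by omega) (by omega))
    obtain ⟨ν, hν⟩ := hT.mono (show ρ / 4 + 1 ≤ ρ by linarith) ζ hζ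
    exact ⟨ζ, ν, hν, h1⟩
  have hb : ∀ (b : Site) (ζ ν : ℂ), ‖ν‖ = 1 → ‖ζ - pos b‖ ≤ 4 → ∃ c : ℂ, dist (toC b) c ≤ ρ / 4 + 5 ∧
      ∀ x y : Site, dist (toC x) c ≤ ρ / 4 → InC x y → toC y ∈ ball (ζ + (ρ / 4 + 1 : ℝ) * ν) (ρ / 4 + 1) := by
    intro b ζ ν hν hζ
    refine ⟨ζ + (ρ / 4 + 1 : ℝ) * ν - (1 + I) / 2, ?_, fun x y hx hy => ?_⟩
    · rw [dist_comm, dist_eq_norm, show ζ + (ρ / 4 + 1 : ℝ) * ν - (1 + I) / 2 - toC b =
        ζ - pos b + (ρ / 4 + 1 : ℝ) * ν by rw [pos]; ring]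
      refine (norm_add_le _ _).trans ?_
      rw [norm_mul, hν, norm_real, Real.norm_of_nonneg (by linarith)]
      linarith
    · have h1 := norm_sub_le_norm_sub_add_norm_sub (toC y) (pos x) (ζ + (ρ / 4 + 1 : ℝ) * ν)
      rw [dist_eq_norm, show toC x - (ζ + (ρ / 4 + 1 : ℝ) * ν - (1 + I) / 2) = pos x - (ζ + (ρ / 4 + 1 : ℝ) * ν) by
        rw [pos]; ring] at hx
      rw [mem_ball_iff_norm]
      linarith [hy.norm]
  refine ⟨fun b hb' => ?_, fun b hb' => ?_, fun b b' r hb1 hb2 hs hr => ?_, fun b b' hb1 hb2 => ?_⟩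
  · obtain ⟨ζ, ν, hν, hζ⟩ := hf b hb'
    obtain ⟨c, hc1, hc2⟩ := hb b ζ (-ν) (by rw [norm_neg, hν.1]) hζ
    exact ⟨c, hc1, fun e he => h.out e fun y hy hG => Set.disjoint_left.1 hν.2.2
      (by simpa only [mul_neg, ← sub_eq_add_neg] using hc2 _ y he hy) (subset_closure hG)⟩
  · obtain ⟨ζ, ν, hν, hζ⟩ := hf b hb'
    obtain ⟨c, hc1, hc2⟩ := hb b ζ ν hν.1 hζ
    exact ⟨c, hc1, fun e he => h.ins e fun y hy => hν.2.1 (hc2 _ y he hy)⟩
  · obtain ⟨y, hy, hyb, p⟩ := h.frz b hb1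
    obtain ⟨y', hy', hyb', p'⟩ := h.frz b' hb2
    have hv := h.hv
    refine ((frozen_mono (fun x hx => ?_) p).trans (h.lift (fun x hx => ⟨hx.1, ?_⟩)
      (conn_loc ho hT (r := r + 1) (by push_cast; linarith) hy hy' ?_))).trans
      (frozen_mono (fun x hx => ?_) (frozen_symm p'))
    · replace hx : InC y x := hx
      simp only [Finset.mem_coe, mem_box, InC, supd] at hx hyb ⊢; omega
    · have := hx.2
      simp only [Finset.mem_coe, mem_box, InC, supd, Prod.fst_add, Prod.snd_add, Prod.fst_zero,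
        Prod.snd_zero] at this hv hyb ⊢
      omega
    · simp only [InC, supd] at hs hyb hyb' ⊢; omega
    · replace hx : InC y' x := hx
      simp only [Finset.mem_coe, mem_box, InC, supd] at hx hyb' hs ⊢; omega
  · obtain ⟨y, hy, -, p⟩ := h.frz b hb1
    obtain ⟨y', hy', -, p'⟩ := h.frz b' hb2
    exact ((frozen_mono (subset_univ _) p).trans (h.lift (fun x hx => ⟨hx, mem_univ _⟩)
      (conn_glob ho hT hρ hc hy hy'))).trans (frozen_mono (subset_univ _) (frozen_symm p'))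

theorem meshPoint_eq (a : ℝ) (z : Site) : meshPoint a z = a * toC z := by
  apply Complex.ext <;> simp [meshPoint, toC]

theorem reg_scaled {D : Set ℂ} (ho : IsOpen D) {ρ a : ℝ} (hT : TB D ρ) (hc : IsPreconnected (closure D)ᶜ)
    (ha : 0 < a) (hρ : 3000 ≤ ρ / a) :
    Reg (ePlus (domainSites D a)) (ρ / a / 4) ∧ Reg (eDual (domainSites D a)) (ρ / a / 4) ∧
      ∀ z z', z ∉ domainSites D a → z' ∉ domainSites D a → Conn (domainSites D a)ᶜ z z' := by
  have ha' : (a : ℂ) ≠ 0 := ofReal_ne_zero.2 ha.ne'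
  let m : ℂ ≃ₜ ℂ := Homeomorph.mulLeft₀ (a : ℂ) ha'
  have hm : ∀ w, m w = a * w := fun _ => rfl
  have hS : domainSites D a = {z | toC z ∈ m ⁻¹' D} := by
    ext z; simp only [domainSites, mem_setOf_eq, mem_preimage, hm, meshPoint_eq]
  have ho' : IsOpen (m ⁻¹' D) := ho.preimage m.continuous
  have hc' : IsPreconnected (closure (m ⁻¹' D))ᶜ := by
    rw [← m.preimage_closure, ← preimage_compl, m.isPreconnected_preimage]; exact hc
  have hb : ∀ ζ ν w : ℂ, w ∈ ball (ζ + (ρ / a : ℝ) * ν) (ρ / a) → m w ∈ ball (m ζ + ρ * ν) ρ := fun ζ ν w hw => by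
    rw [mem_ball_iff_norm] at *
    rw [hm, hm, show a * w - (a * ζ + ρ * ν) = a * (w - (ζ + (ρ / a : ℝ) * ν)) by push_cast; field_simp, norm_mul,
      norm_real, Real.norm_of_nonneg ha.le]
    exact (lt_div_iff₀' ha).1 hw
  have hT' : TB (m ⁻¹' D) (ρ / a) := fun ζ hζ => by
    rw [← m.preimage_frontier] at hζ
    obtain ⟨ν, hν⟩ := hT _ hζ
    refine ⟨ν, hν.1, fun w hw => hν.2.1 (hb ζ ν w hw), Set.disjoint_left.2 fun w hw hw' => ?_⟩
    rw [← m.preimage_closure] at hw'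
    refine Set.disjoint_left.1 hν.2.2 ?_ hw'
    simpa only [mul_neg, ← sub_eq_add_neg] using hb ζ (-ν) w (by simpa only [mul_neg, ← sub_eq_add_neg] using hw)
  rw [hS]
  exact ⟨(sand_plus _).reg ho' hT' hρ hc', (sand_dual _).reg ho' hT' hρ hc',
    fun z z' hz hz' => conn_glob ho' hT' hρ hc' hz hz'⟩

end Crest.Agent.R165.T
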