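import Crest.Agent.R165.Cont
import Crest.Agent.R165.T.Curve
import Crest.Agent.R165.T.Reg

/-! # R165 block T: topology of `C²` Jordan domains and their discretisations
(OWNER fills the sorries; statements FROZEN). Recipes: notes165/route.md §T. -/

set_option autoImplicit false
noncomputable section
open Classical Filter Topology Crest.ProbabilityR.IsingModel

namespace Crest.Agent.R165

theorem nice_of_jordan {D : Set ℂ} (hD : IsC2JordanDomain D) (hne : D.Nonempty) : Nice D := by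
  obtain ⟨γ, hc, hp, hi, h0, hD⟩ := hD
  obtain ⟨h1, h2, h3, h4, h5⟩ := T.jordan_main hc hp hi h0 hD hne
  exact ⟨h1, h2, h3, h4, h5⟩

theorem T.tb_ball {R : ℝ} (hR : 0 < R) : T.TB (Metric.ball (0 : ℂ) R) R := fun ζ hζ => by
  rw [frontier_ball _ hR.ne', mem_sphere_zero_iff_norm] at hζ
  have hR' : (R : ℂ) ≠ 0 := Complex.ofReal_ne_zero.2 hR.ne'
  refine ⟨-ζ / R, ?_, ?_, ?_⟩
  · rw [norm_div, norm_neg, hζ, Complex.norm_real, Real.norm_of_nonneg hR.le, div_self hR.ne']
  · rw [mul_div_cancel₀ _ hR', add_neg_cancel]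
  · rw [mul_div_cancel₀ _ hR', sub_neg_eq_add]
    refine (Metric.ball_disjoint_ball ?_).closure_right Metric.isOpen_ball
    rw [dist_zero_right, ← two_mul ζ, norm_mul, hζ]
    simp [two_mul]

theorem T.compl_ball {R : ℝ} (hR : 0 < R) : IsPreconnected (closure (Metric.ball (0 : ℂ) R))ᶜ := by
  have : (closure (Metric.ball (0 : ℂ) R))ᶜ =
      (fun p : ℝ × ℝ => (p.1 : ℂ) * Complex.exp (p.2 * Complex.I)) '' (Set.Ioi R ×ˢ Set.univ) := by
    rw [closure_ball _ hR.ne']
    ext z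
    rw [Set.mem_compl_iff, mem_closedBall_zero_iff, not_le]
    refine ⟨fun h => ⟨(‖z‖, z.arg), ⟨h, trivial⟩, Complex.norm_mul_exp_arg_mul_I z⟩, ?_⟩
    rintro ⟨p, hp, rfl⟩
    rw [norm_mul, Complex.norm_exp_ofReal_mul_I, mul_one, Complex.norm_real, Real.norm_of_nonneg (hR.trans hp.1).le]
    exact hp.1
  rw [this]
  exact (isPreconnected_Ioi.prod isPreconnected_univ).image _ (by fun_prop)

theorem nice_ball {R : ℝ} (hR : 0 < R) : Nice (Metric.ball (0 : ℂ) R) := by
  have hR' : (R : ℂ) ≠ 0 := Complex.ofReal_ne_zero.2 hR.ne'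
  refine ⟨Metric.isOpen_ball, Metric.isBounded_ball, ⟨R, hR, T.tb_ball hR⟩, T.compl_ball hR, fun z => z / R,
    by fun_prop, ⟨fun z hz => ?_, fun z _ w _ h => (div_left_inj' hR').1 h, fun w hw => ⟨R * w, ?_, ?_⟩⟩,
    fun ζ _ => ⟨ζ / R, ((continuous_id.div_const (R : ℂ)).tendsto ζ).mono_left nhdsWithin_le_nhds⟩⟩
  · rw [mem_ball_zero_iff] at *
    rw [norm_div, Complex.norm_real, Real.norm_of_nonneg hR.le, div_lt_one hR]; exact hz
  · rw [mem_ball_zero_iff] at *
    rw [norm_mul, Complex.norm_real, Real.norm_of_nonneg hR.le]; exact mul_lt_of_lt_one_right hR hw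
  · exact mul_div_cancel_left₀ w hR'

theorem Nice.sites_finite {D : Set ℂ} (hD : Nice D) {a : ℝ} (ha : 0 < a) : (domainSites D a).Finite := by
  obtain ⟨R, hR⟩ := hD.bdd.subset_closedBall 0
  refine (box 0 ⌈R / a⌉₊).finite_toSet.subset fun z hz => T.mem_box.2 (T.supd_le_of_norm ?_)
  have h := mem_closedBall_zero_iff.1 (hR hz)
  rw [T.meshPoint_eq, norm_mul, Complex.norm_real, Real.norm_of_nonneg ha.le] at h
  rw [show toC 0 = 0 from Complex.ext (by simp [toC]) (by simp [toC]), zero_sub, norm_neg]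
  exact ((le_div_iff₀' ha).2 h).trans (Nat.le_ceil _)

theorem edges_finite_of_fibre {T : Set Site} (h : T.Finite) (f : Fin 2 → Site) : {e : Edge | e.1 + f e.2 ∈ T}.Finite :=
  ((h.prod (Set.finite_univ (α := Fin 2))).image fun p => ((p.1 - f p.2, p.2) : Edge)).subset fun e he =>
    ⟨(e.1 + f e.2, e.2), ⟨he, trivial⟩, by simp⟩

theorem ePlus_finite {T : Set Site} (h : T.Finite) : (ePlus T).Finite :=
  ((edges_finite_of_fibre h ![(1, 0), (0, 1)]).union (edges_finite_of_fibre h fun _ => (1, 1))).subset fun e he =>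
    he.imp (fun h => by obtain ⟨x, j⟩ := e; fin_cases j <;> exact h) id

theorem eDual_finite {T : Set Site} (h : T.Finite) : (eDual T).Finite :=
  (edges_finite_of_fibre h uv).subset fun _ he => he.2

/-- the exterior of `T` is nearest-neighbour connected -/
def ExtConn (T : Set Site) : Prop :=
  ∀ z z', z ∉ T → z' ∉ T → Relation.ReflTransGen (fun b b' => b ∉ T ∧ b' ∉ T ∧ ∃ α, b' = b + dv α) z z'

theorem Nice.reg {D : Set ℂ} (hD : Nice D) : ∃ ρ₀ > 0, ∃ a₀ > 0, ∀ a, 0 < a → a < a₀ →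
    Reg (ePlus (domainSites D a)) (ρ₀ / a) ∧ Reg (eDual (domainSites D a)) (ρ₀ / a) ∧ ExtConn (domainSites D a) := by
  obtain ⟨ρ, hρ, hT⟩ := hD.balls
  refine ⟨ρ / 4, by positivity, ρ / 3000, by positivity, fun a ha ha' => ?_⟩
  have := T.reg_scaled hD.isOpen hT hD.compl ha (ρ := ρ) (by rw [le_div_iff₀ ha]; linarith)
  rw [div_right_comm] at this
  exact this

/-- discs: the constants scale with the radius -/
theorem reg_ball : ∃ c > 0, ∃ M₀ : ℝ, ∀ a R : ℝ, 0 < a → M₀ ≤ R / a →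
    Reg (ePlus (domainSites (Metric.ball 0 R) a)) (c * (R / a)) ∧ ExtConn (domainSites (Metric.ball 0 R) a) := by
  refine ⟨1 / 4, by positivity, 3000, fun a R ha h => ?_⟩
  have hR : 0 < R := (div_pos_iff_of_pos_right ha).1 (by linarith)
  have := T.reg_scaled Metric.isOpen_ball (T.tb_ball hR) (T.compl_ball hR) ha h
  rw [show R / a / 4 = 1 / 4 * (R / a) by ring] at this
  exact ⟨this.1, this.2.2⟩

/-- a nice domain minus finitely many points is connected by polygonal paths with horizontal and vertical sides -/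
theorem NiceP.preconnected_diff {D : Set ℂ} {n : ℕ} (hD : NiceP D n) (Y : Set ℂ) (hY : Y.Finite) :
    IsOpen (D \ Y) ∧ IsPreconnected (D \ Y) := by
  have hr : 1 < Module.rank ℝ ℂ := by rw [Complex.rank_real_complex]; norm_num
  rcases hD with hD | ⟨rfl, -⟩
  · refine ⟨hD.isOpen.sdiff hY.isClosed, ?_⟩
    obtain ⟨φ, hd, hb, -⟩ := hD.riem
    obtain ⟨-, ψ, hψ, hψφ⟩ := Crest.Agent.Lib.RMT.exists_holomorphic_inverse hD.isOpen hd hb.injOn
    rw [hb.image_eq] at hψ
    let u : OpenPartialHomeomorph ℂ ℂ := OpenPartialHomeomorph.univUnitBall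
    have hu : ∀ w, u w ∈ Metric.ball (0 : ℂ) 1 := fun w => u.map_source (Set.mem_univ w)
    have hc : Continuous fun w => ψ (u w) :=
      hψ.continuousOn.comp_continuous (continuousOn_univ.1 u.continuousOn) hu
    have : D \ Y = (fun w => ψ (u w)) '' ((fun y => u.symm (φ y)) '' (Y ∩ D))ᶜ := by
      ext z
      constructor
      · rintro ⟨hz, hzY⟩
        refine ⟨u.symm (φ z), ?_, by simp only [u.right_inv (hb.mapsTo hz), hψφ z hz]⟩
        rintro ⟨y, hy, e⟩
        exact hzY (hb.injOn hy.2 hz (u.symm.injOn (hb.mapsTo hy.2) (hb.mapsTo hz) e) ▸ hy.1)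
      · rintro ⟨w, hw, rfl⟩
        obtain ⟨z, hz, e⟩ := hb.surjOn (hu w)
        simp only [← e, hψφ z hz]
        exact ⟨hz, fun hzY => hw ⟨z, ⟨hzY, hz⟩, by simp only [e, u.left_inv (Set.mem_univ w)]⟩⟩
    rw [this]
    exact (((hY.inter_of_left D).image _).countable.isConnected_compl_of_one_lt_rank hr).isPreconnected.image _
      hc.continuousOn
  · rw [← Set.compl_eq_univ_diff]
    exact ⟨hY.isClosed.isOpen_compl, (hY.countable.isConnected_compl_of_one_lt_rank hr).isPreconnected⟩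

end Crest.Agent.R165
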