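import Crest.Agent.Lib.RMT.Main
import Crest.Agent.Lib.RMT.Inverse

/-! # R165/T/Bdry: two-sided balls, boundary limits of the Riemann map -/

set_option autoImplicit false
open Set Metric Filter Topology Complex Function
open scoped ComplexConjugate

namespace Crest.Agent.R165.T

open Crest.Agent.Lib.RMT

/-- interior and exterior ball of radius `ρ` at `ζ` with normal `ν` -/
def TBat (D : Set ℂ) (ρ : ℝ) (ζ ν : ℂ) : Prop :=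
  ‖ν‖ = 1 ∧ ball (ζ + ρ * ν) ρ ⊆ D ∧ Disjoint (ball (ζ - ρ * ν) ρ) (closure D)

def TB (D : Set ℂ) (ρ : ℝ) : Prop := ∀ ζ ∈ frontier D, ∃ ν : ℂ, TBat D ρ ζ ν

theorem TBat.far {D : Set ℂ} {ρ : ℝ} {ζ ν w : ℂ} {ε : ℝ} (h : TBat D ρ ζ ν) (hρ : 0 < ρ) (hε : 0 < ε)
    (hw : ball w ε ⊆ D) : ε + ρ ≤ ‖w - (ζ - ρ * ν)‖ := by
  rw [← dist_eq_norm, ← disjoint_ball_ball_iff hε hρ]
  exact (h.2.2.mono_right (hw.trans subset_closure)).symm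

theorem TBat.normal {D : Set ℂ} {ρ : ℝ} {ζ ν ζ' ν' : ℂ} (h : TBat D ρ ζ ν) (h' : TBat D ρ ζ' ν') (hρ : 0 < ρ) :
    ρ * ‖ν - ν'‖ ^ 2 ≤ 4 * ‖ζ - ζ'‖ := by
  have h1 := h'.far hρ hρ h.2.1
  have h2 : ‖ζ + ρ * ν - (ζ' - ρ * ν')‖ ≤ ‖ζ - ζ'‖ + ρ * ‖ν + ν'‖ := by
    have : ζ + ρ * ν - (ζ' - ρ * ν') = (ζ - ζ') + ρ * (ν + ν') := by ring
    rw [this]
    refine (norm_add_le _ _).trans_eq ?_
    rw [norm_mul, norm_real, Real.norm_of_nonneg hρ.le]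
  have h3 := parallelogram_law_with_norm ℝ ν ν'
  rw [h.1, h'.1] at h3
  have h4 : ‖ν + ν'‖ ≤ 2 := (norm_add_le _ _).trans_eq (by rw [h.1, h'.1]; norm_num)
  have h5 : ρ * (2 - ‖ν + ν'‖) ≤ ‖ζ - ζ'‖ := by linarith
  have h6 : ‖ν - ν'‖ ^ 2 ≤ 4 * (2 - ‖ν + ν'‖) := by nlinarith [norm_nonneg (ν + ν')]
  nlinarith [mul_le_mul_of_nonneg_left h6 hρ.le]

theorem exists_near {D : Set ℂ} (ho : IsOpen D) (hD : D ≠ univ) {z : ℂ} (hz : z ∈ D) :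
    ∃ ζ ∈ frontier D, 0 < ‖z - ζ‖ ∧ ball z ‖z - ζ‖ ⊆ D ∧ ∀ w ∉ D, ‖z - ζ‖ ≤ ‖z - w‖ := by
  obtain ⟨ζ, hζ, h⟩ := exists_mem_frontier_infDist_compl_eq_dist hz hD
  rw [dist_eq_norm] at h
  refine ⟨ζ, hζ, norm_pos_iff.2 (sub_ne_zero.2 fun e => ?_), h ▸ ball_infDist_compl_subset, fun w hw => ?_⟩
  · rw [ho.frontier_eq] at hζ; exact hζ.2 (e ▸ hz)
  · rw [← h, ← dist_eq_norm]; exact infDist_le_dist_of_mem hw

theorem TBat.mem_ball {D : Set ℂ} {ρ : ℝ} {ζ ν z : ℂ} (h : TBat D ρ ζ ν) (hρ : 0 < ρ) (h0 : 0 < ‖z - ζ‖)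
    (hz : ball z ‖z - ζ‖ ⊆ D) (ht : ‖z - ζ‖ < 2 * ρ) : z ∈ ball (ζ + ρ * ν) ρ := by
  have h1 := h.far hρ h0 hz
  have h3 := parallelogram_law_with_norm ℝ (z - ζ) (ρ * ν)
  rw [norm_mul, norm_real, Real.norm_of_nonneg hρ.le, h.1] at h3
  rw [show z - (ζ - ρ * ν) = z - ζ + ρ * ν by ring] at h1
  rw [mem_ball_iff_norm, show z - (ζ + ρ * ν) = z - ζ - ρ * ν by ring]
  refine lt_of_pow_lt_pow_left₀ 2 hρ.le ?_
  nlinarith [mul_self_le_mul_self (by positivity) h1]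

theorem one_sub_mob {a b : ℂ} (ha : ‖a‖ < 1) (hb : ‖b‖ < 1) :
    (1 - ‖mob a b‖ ^ 2) * (1 - ‖a‖) ^ 2 ≤ 2 * (1 - ‖b‖) := by
  have hd := norm_pos_iff.2 (mob_den_ne ha hb)
  have h1 : 1 - ‖a‖ ≤ ‖1 - conj a * b‖ := by
    have := norm_sub_norm_le 1 (conj a * b)
    rw [norm_one, norm_mul, norm_conj] at this
    nlinarith [norm_nonneg a, norm_nonneg b]
  have h2 : ‖1 - conj a * b‖ ^ 2 - ‖b - a‖ ^ 2 = (1 - ‖a‖ ^ 2) * (1 - ‖b‖ ^ 2) := by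
    simp only [Complex.sq_norm, Complex.normSq_apply, sub_re, sub_im, one_re, one_im, mul_re, mul_im, conj_re,
      conj_im]
    ring
  have h3 : (1 - ‖mob a b‖ ^ 2) * ‖1 - conj a * b‖ ^ 2 = (1 - ‖a‖ ^ 2) * (1 - ‖b‖ ^ 2) := by
    rw [← h2, mob, norm_div, div_pow, sub_mul, div_mul_cancel₀ _ (by positivity), one_mul]
  have h4 : 0 ≤ 1 - ‖mob a b‖ ^ 2 := by
    have := norm_mob_lt ha hb
    nlinarith [norm_nonneg (mob a b)]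
  have h5 : (1 - ‖a‖) ^ 2 ≤ ‖1 - conj a * b‖ ^ 2 := pow_le_pow_left₀ (by linarith) h1 2
  have h6 : (1 - ‖a‖ ^ 2) * (1 - ‖b‖ ^ 2) ≤ 1 * (1 - ‖b‖ ^ 2) :=
    mul_le_mul_of_nonneg_right (by nlinarith [norm_nonneg a]) (by nlinarith [norm_nonneg b])
  nlinarith [mul_le_mul_of_nonneg_left h5 h4, norm_nonneg b]

theorem deriv_bound {D : Set ℂ} (ho : IsOpen D) (hD : D ≠ univ) {ρ : ℝ} (hρ : 0 < ρ) (hT : TB D ρ) {φ : ℂ → ℂ}
    (hd : DifferentiableOn ℂ φ D) (hb : BijOn φ D (ball 0 1)) : ∃ C, 0 < C ∧ ∀ z ∈ D, ‖deriv φ z‖ ≤ C := by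
  obtain ⟨-, ψ, hψ, hψφ⟩ := exists_holomorphic_inverse ho hd hb.injOn
  rw [hb.image_eq] at hψ
  have hψD : ∀ w ∈ ball (0 : ℂ) 1, ψ w ∈ D := fun w hw => by
    obtain ⟨z, hz, rfl⟩ := hb.surjOn hw
    rw [hψφ z hz]; exact hz
  obtain ⟨d, hd0, hdD⟩ := Metric.isOpen_iff.1 ho _ (hψD 0 (mem_ball_self one_pos))
  have hq : 0 < 1 - ρ / (d + ρ) := by rw [sub_pos, div_lt_one (by positivity)]; linarith
  refine ⟨2 / (ρ * (1 - ρ / (d + ρ)) ^ 2), by positivity, fun z hz => ?_⟩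
  obtain ⟨ζ, hζ, ht, hzt, -⟩ := exists_near ho hD hz
  obtain ⟨ν, hν⟩ := hT ζ hζ
  have hfar : ∀ w ∈ D, ρ < ‖w - (ζ - ρ * ν)‖ := fun w hw => by
    obtain ⟨ε, hε, h⟩ := Metric.isOpen_iff.1 ho w hw
    linarith [hν.far hρ hε h]
  let g : ℂ → ℂ := fun w => ρ / (ψ w - (ζ - ρ * ν))
  have hgn : ∀ w, ‖g w‖ = ρ / ‖ψ w - (ζ - ρ * ν)‖ := fun w => by
    simp only [g, norm_div, norm_real, Real.norm_of_nonneg hρ.le]
  have hg1 : ∀ w ∈ ball (0 : ℂ) 1, ‖g w‖ < 1 := fun w hw => by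
    have := hfar _ (hψD w hw)
    rw [hgn, div_lt_one (hρ.trans this)]; exact this
  have hgd : DifferentiableOn ℂ g (ball 0 1) := (differentiableOn_const _).div (hψ.sub_const _)
    fun w hw => norm_pos_iff.1 (hρ.trans (hfar _ (hψD w hw)))
  have h0 : (0 : ℂ) ∈ ball (0 : ℂ) 1 := mem_ball_self one_pos
  have hφz : φ z ∈ ball (0 : ℂ) 1 := hb.mapsTo hz
  have hS : ‖mob (g 0) (g (φ z))‖ ≤ ‖φ z‖ :=
    norm_le_norm_of_mapsTo_ball (f := fun w => mob (g 0) (g w)) (R := 1)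
      (fun w hw => (hasDerivAt_mob (hg1 0 h0) (hg1 w hw)).differentiableAt.comp_differentiableWithinAt w (hgd w hw))
      (fun w hw => mem_closedBall_zero_iff.2 (norm_mob_lt (hg1 0 h0) (hg1 w hw)).le) (mob_self _)
      (mem_ball_zero_iff.1 hφz)
  have h1 := one_sub_mob (hg1 0 h0) (hg1 _ hφz)
  have h2 : ‖g 0‖ ≤ ρ / (d + ρ) := by
    rw [hgn]; exact div_le_div_of_nonneg_left hρ.le (by positivity) (hν.far hρ hd0 hdD)
  have h3 : 1 - ‖g (φ z)‖ ≤ ‖z - ζ‖ / ρ := by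
    have h4 : ‖z - (ζ - ρ * ν)‖ ≤ ‖z - ζ‖ + ρ := by
      rw [show z - (ζ - ρ * ν) = z - ζ + ρ * ν by ring]
      refine (norm_add_le _ _).trans_eq ?_
      rw [norm_mul, norm_real, Real.norm_of_nonneg hρ.le, hν.1, mul_one]
    have h5 : ρ / (‖z - ζ‖ + ρ) ≤ ‖g (φ z)‖ := by
      rw [hgn, hψφ z hz]; exact div_le_div_of_nonneg_left hρ.le (hρ.trans (hfar z hz)) h4
    have h6 : 1 - ρ / (‖z - ζ‖ + ρ) ≤ ‖z - ζ‖ / ρ := by
      rw [one_sub_div (by positivity), add_sub_cancel_right]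
      exact div_le_div_of_nonneg_left ht.le hρ (by linarith)
    linarith
  have hφ1 := mem_ball_zero_iff.1 hφz
  have h4 : 0 < 1 - ‖φ z‖ ^ 2 := by nlinarith [norm_nonneg (φ z)]
  have h5 : (1 - ‖φ z‖ ^ 2) * (1 - ρ / (d + ρ)) ^ 2 ≤ 2 * (‖z - ζ‖ / ρ) := by
    have h6 : 1 - ‖φ z‖ ^ 2 ≤ 1 - ‖mob (g 0) (g (φ z))‖ ^ 2 := by
      linarith [pow_le_pow_left₀ (norm_nonneg _) hS 2]
    have h7 : (1 - ρ / (d + ρ)) ^ 2 ≤ (1 - ‖g 0‖) ^ 2 := pow_le_pow_left₀ hq.le (by linarith) 2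
    have := mul_le_mul h6 h7 (by positivity) (h4.le.trans h6)
    linarith
  have hP : ‖deriv (fun w => mob (φ z) (φ w)) z‖ ≤ 1 / ‖z - ζ‖ :=
    norm_deriv_le_div_of_mapsTo_ball (f := fun w => mob (φ z) (φ w))
      (fun w hw => (hasDerivAt_mob hφ1 (mem_ball_zero_iff.1 (hb.mapsTo (hzt hw)))).differentiableAt.comp_differentiableWithinAt
        w ((hd w (hzt hw)).mono hzt))
      (fun w hw => by
        rw [mob_self]; exact mem_closedBall_zero_iff.2 (norm_mob_lt hφ1 (mem_ball_zero_iff.1 (hb.mapsTo (hzt hw)))).le)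
      ht
  rw [norm_deriv_mob_comp (hd.differentiableAt (ho.mem_nhds hz)).hasDerivAt hφ1, div_le_div_iff₀ h4 ht] at hP
  rw [le_div_iff₀ (by positivity)]
  rw [← mul_div_assoc, le_div_iff₀ hρ] at h5
  have h8 := mul_le_mul_of_nonneg_right hP (show 0 ≤ (1 - ρ / (d + ρ)) ^ 2 * ρ by positivity)
  refine le_of_mul_le_mul_right ?_ ht
  nlinarith

theorem bdry_limit {D : Set ℂ} (ho : IsOpen D) (hD : D ≠ univ) {ρ : ℝ} (hρ : 0 < ρ) (hT : TB D ρ) {φ : ℂ → ℂ}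
    (hd : DifferentiableOn ℂ φ D) (hb : BijOn φ D (ball 0 1)) {ζ : ℂ} (hζ : ζ ∈ frontier D) :
    ∃ ζ' : ℂ, Tendsto φ (𝓝[D] ζ) (𝓝 ζ') := by
  obtain ⟨C, hC, hC'⟩ := deriv_bound ho hD hρ hT hd hb
  have hL : ∀ c r, ball c r ⊆ D → ∀ x ∈ ball c r, ∀ y ∈ ball c r, ‖φ y - φ x‖ ≤ C * ‖y - x‖ :=
    fun c r h x hx y hy => (convex_ball c r).norm_image_sub_le_of_norm_deriv_le
      (fun w hw => hd.differentiableAt (ho.mem_nhds (h hw))) (fun w hw => hC' w (h hw)) hx hy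
  obtain ⟨ν, hν⟩ := hT ζ hζ
  have hζD : ζ ∉ D := by rw [ho.frontier_eq] at hζ; exact hζ.2
  have key : ∀ s : ℝ, 0 < s → s < ρ → ∀ z ∈ D, ‖z - ζ‖ < s / 32 → ‖φ z - φ (ζ + s * ν)‖ ≤ C * (3 * s) := by
    intro s hs hsρ z hz hzs
    obtain ⟨ξ, hξ, ht, hzt, hmin⟩ := exists_near ho hD hz
    obtain ⟨μ, hμ⟩ := hT ξ hξ
    have h1 := hmin ζ hζD
    have hin : ∀ ξ μ : ℂ, ‖μ‖ = 1 → ‖ξ + s * μ - (ξ + ρ * μ)‖ = ρ - s := fun ξ μ h => by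
      rw [show ξ + s * μ - (ξ + ρ * μ) = -(((ρ - s : ℝ) : ℂ) * μ) by push_cast; ring, norm_neg, norm_mul, h,
        norm_real, Real.norm_of_nonneg (by linarith), mul_one]
    have h2 : ‖ξ - ζ‖ ≤ s / 16 := by
      have := norm_sub_le_norm_sub_add_norm_sub ξ z ζ
      rw [norm_sub_rev ξ z] at this; linarith
    have h3 : ‖μ - ν‖ ≤ 1 / 2 := by
      have := hμ.normal hν hρ
      refine le_of_sq_le_sq ?_ (by norm_num)
      nlinarith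
    have h4 : ‖ξ + s * μ - (ζ + s * ν)‖ ≤ s / 16 + s * (1 / 2) := by
      rw [show ξ + s * μ - (ζ + s * ν) = (ξ - ζ) + s * (μ - ν) by ring]
      refine (norm_add_le _ _).trans (add_le_add h2 ?_)
      rw [norm_mul, norm_real, Real.norm_of_nonneg hs.le]
      exact mul_le_mul_of_nonneg_left h3 hs.le
    have h5 := hL _ _ hμ.2.1 (ξ + s * μ) (by rw [mem_ball_iff_norm, hin _ _ hμ.1]; linarith) z
      (hμ.mem_ball hρ ht hzt (by linarith))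
    have h6 := hL _ _ hν.2.1 (ζ + s * ν) (by rw [mem_ball_iff_norm, hin _ _ hν.1]; linarith) (ξ + s * μ) (by
      have := norm_sub_le_norm_sub_add_norm_sub (ξ + s * μ) (ζ + s * ν) (ζ + ρ * ν)
      rw [hin _ _ hν.1] at this
      rw [mem_ball_iff_norm]; linarith)
    have h7 : ‖z - (ξ + s * μ)‖ ≤ ‖z - ξ‖ + s := by
      rw [← sub_sub]
      refine (norm_sub_le _ _).trans_eq ?_
      rw [norm_mul, norm_real, Real.norm_of_nonneg hs.le, hμ.1, mul_one]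
    have h8 := norm_sub_le_norm_sub_add_norm_sub (φ z) (φ (ξ + s * μ)) (φ (ζ + s * ν))
    have h9 := mul_le_mul_of_nonneg_left h7 hC.le
    have h10 := mul_le_mul_of_nonneg_left h4 hC.le
    nlinarith
  have : NeBot (𝓝[D] ζ) := mem_closure_iff_nhdsWithin_neBot.1 (frontier_subset_closure hζ)
  rw [← cauchy_map_iff_exists_tendsto, Metric.cauchy_iff]
  refine ⟨inferInstance, fun ε hε => ?_⟩
  obtain ⟨s, hs, hsρ, hsε⟩ : ∃ s : ℝ, 0 < s ∧ s < ρ ∧ C * (6 * s) < ε := by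
    refine ⟨min (ρ / 2) (ε / (7 * C)), by positivity, (min_le_left _ _).trans_lt (by linarith), ?_⟩
    have := (le_div_iff₀ (by positivity)).1 (min_le_right (ρ / 2) (ε / (7 * C)))
    have h2 : 0 < min (ρ / 2) (ε / (7 * C)) := by positivity
    nlinarith
  refine ⟨φ '' (D ∩ ball ζ (s / 32)), image_mem_map (inter_mem_nhdsWithin D (ball_mem_nhds ζ (by positivity))), ?_⟩
  rintro _ ⟨x, hx, rfl⟩ _ ⟨y, hy, rfl⟩
  have h1 := key s hs hsρ x hx.1 (mem_ball_iff_norm.1 hx.2)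
  have h2 := key s hs hsρ y hy.1 (mem_ball_iff_norm.1 hy.2)
  have h3 := norm_sub_le_norm_sub_add_norm_sub (φ x) (φ (ζ + s * ν)) (φ y)
  rw [norm_sub_rev (φ (ζ + s * ν))] at h3
  rw [dist_eq_norm]; linarith

end Crest.Agent.R165.T
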