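import Crest.Agent.Lib.RMT.Main
import Crest.Agent.Lib.RMT.Inverse

/-! # R165/T/Log: square roots on one-ended domains and the Riemann map -/

set_option autoImplicit false
open Set Metric Filter Topology Complex Function
open scoped ComplexConjugate

namespace Crest.Agent.R165.T

open Crest.Agent.Lib.RMT

theorem log_cpt {V K : Set ℂ} (hb : Bornology.IsBounded V) (hc : IsPreconnected Vᶜ) (h0 : (0 : ℂ) ∉ V)
    (hK : IsCompact K) (hKV : K ⊆ V) : ∃ L : ℂ → ℂ, ContinuousOn L K ∧ ∀ z ∈ K, exp (L z) = z := by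
  obtain ⟨R, hR0, hR⟩ := hb.subset_ball_lt 0 0
  let P : ℂ → Prop := fun a => ∃ L : ℂ → ℂ, ContinuousOn L K ∧ ∀ z ∈ K, exp (L z) = z - a
  have key := hc.induction₂' (fun a b => P a → P b) (fun a ha => ?_) (fun a b c _ _ _ h1 h2 => h2 ∘ h1)
    (x := -R) (y := 0) (fun h => by simpa [abs_of_pos hR0] using hR h) h0
  · have hs : ∀ z ∈ K, z - -(R : ℂ) ∈ slitPlane := fun z hz => Or.inl (by
      have := (abs_le.1 ((abs_re_le_norm z).trans (mem_ball_zero_iff.1 (hR (hKV hz))).le))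
      have h2 := (abs_lt.1 ((abs_re_le_norm z).trans_lt (mem_ball_zero_iff.1 (hR (hKV hz))))).1
      simp only [sub_neg_eq_add, add_re, ofReal_re]; linarith)
    simpa only [P, sub_zero] using key ⟨fun z => log (z - -(R : ℂ)),
      (continuousOn_id.sub continuousOn_const).clog hs, fun z hz => exp_log (slitPlane_ne_zero (hs z hz))⟩
  · obtain ⟨δ, hδ, hδ'⟩ := Metric.isOpen_iff.1 hK.isClosed.isOpen_compl a fun h => ha (hKV h)
    filter_upwards [nhdsWithin_le_nhds (ball_mem_nhds a hδ)] with b hb'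
    have h1 : ∀ z ∈ K, δ ≤ ‖z - a‖ := fun z hz => le_of_not_gt fun h => hδ' (mem_ball_iff_norm.2 h) hz
    have h2 : ∀ z ∈ K, z - a ≠ 0 := fun z hz => norm_pos_iff.1 (hδ.trans_le (h1 z hz))
    have h3 : ∀ z ∈ K, (z - b) / (z - a) ∈ slitPlane := fun z hz => by
      rw [show (z - b) / (z - a) = 1 + (a - b) / (z - a) by have := h2 z hz; field_simp; ring]
      refine mem_slitPlane_of_norm_lt_one ?_
      rw [norm_div, div_lt_one (hδ.trans_le (h1 z hz)), norm_sub_rev]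
      exact (mem_ball_iff_norm.1 hb').trans_le (h1 z hz)
    have h4 : ContinuousOn (fun z => log ((z - b) / (z - a))) K :=
      ((continuousOn_id.sub continuousOn_const).div (continuousOn_id.sub continuousOn_const) h2).clog h3
    refine ⟨fun ⟨L, c, e⟩ => ⟨_, c.add h4, fun z hz => ?_⟩, fun ⟨L, c, e⟩ => ⟨_, c.sub h4, fun z hz => ?_⟩⟩
    · have := h2 z hz
      rw [Pi.add_apply, exp_add, e z hz, exp_log (slitPlane_ne_zero (h3 z hz))]; field_simp
    · have := h2 z hz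
      have := (div_ne_zero_iff.1 (slitPlane_ne_zero (h3 z hz))).1
      rw [Pi.sub_apply, exp_sub, e z hz, exp_log (slitPlane_ne_zero (h3 z hz))]; field_simp

theorem log_dom {V : Set ℂ} (ho : IsOpen V) (hp : IsConnected V) (hb : Bornology.IsBounded V)
    (hc : IsPreconnected Vᶜ) (h0 : (0 : ℂ) ∉ V) : ∃ L : ℂ → ℂ, ContinuousOn L V ∧ ∀ z ∈ V, exp (L z) = z := by
  classical
  have := isPathConnected_iff_pathConnectedSpace.1 (ho.isConnected_iff_isPathConnected.1 hp)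
  have := ho.locallyPathConnectedSpace
  obtain ⟨a, ha⟩ := hp.nonempty
  have hne : ∀ z : V, (z : ℂ) ≠ 0 := fun z h => h0 (h ▸ z.2)
  let f : C(V, {z : ℂ // z ≠ 0}) := ⟨fun z => ⟨z, hne z⟩, by fun_prop⟩
  have he : (⟨_, (log a).exp_ne_zero⟩ : {z : ℂ // z ≠ 0}) = f ⟨a, ha⟩ := Subtype.ext (exp_log (hne ⟨a, ha⟩))
  obtain ⟨F, ⟨-, hF⟩, -⟩ := isCoveringMap_exp.isLocalHomeomorph.existsUnique_continuousMap_lifts f ⟨a, ha⟩ (log a) he
    (fun γ h => by simpa [and_comm] using isCoveringMap_exp.exists_path_lifts (f.comp γ) (log a) (by simp [h, he]))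
    fun γ γ' Γ Γ' h1 h2 h3 h4 h5 h6 h7 => by
      have cK : ∀ γ : C(unitInterval, V), IsCompact (range fun t => (γ t : ℂ)) := fun γ =>
        isCompact_range (by fun_prop)
      obtain ⟨L, hL, hL'⟩ := log_cpt hb hc h0 ((cK γ).union (cK γ'))
        (by rintro _ (⟨t, rfl⟩ | ⟨t, rfl⟩) <;> exact Subtype.property _)
      have hA : exp (L a) = a := hL' a (Or.inl ⟨0, by simp [h1]⟩)
      have key : ∀ (δ : C(unitInterval, V)) (Δ : C(unitInterval, ℂ)), δ 0 = ⟨a, ha⟩ → Δ 0 = log a →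
          (∀ t, (δ t : ℂ) ∈ (range fun t => (γ t : ℂ)) ∪ range fun t => (γ' t : ℂ)) →
          (fun z : ℂ => (⟨_, z.exp_ne_zero⟩ : {z : ℂ // z ≠ 0})) ∘ Δ = f.comp δ →
          Δ 1 = L (δ 1) + (log a - L a) := fun δ Δ e1 e2 e3 e4 =>
        congrFun (isCoveringMap_exp.eq_of_comp_eq (g₁ := Δ) (g₂ := fun t => L (δ t) + (log a - L a)) Δ.continuous
          ((hL.comp_continuous (by fun_prop) e3).add continuous_const) (e4.trans (funext fun t => Subtype.ext (by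
            change (δ t : ℂ) = exp (L (δ t) + (log a - L a))
            rw [exp_add, exp_sub, hL' _ (e3 t), hA, exp_log (hne ⟨a, ha⟩), div_self (hne ⟨a, ha⟩), mul_one])))
          0 (by simp [e1, e2])) 1
      rw [key γ Γ h1 h3 (fun t => Or.inl ⟨t, rfl⟩) h5, key γ' Γ' h2 h4 (fun t => Or.inr ⟨t, rfl⟩) h6, h7]
  refine ⟨fun z => if h : z ∈ V then F ⟨z, h⟩ else 0, ?_, fun z hz => ?_⟩
  · rw [continuousOn_iff_continuous_restrict]
    exact F.continuous.congr fun z => by simp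
  · simp only [dif_pos hz]
    exact congrArg Subtype.val (congrFun hF ⟨z, hz⟩)

/-- one end -/
def OneEnd (U : Set ℂ) : Prop := ∀ K, IsCompact K → K ⊆ U →
  ∃ C K', IsPreconnected C ∧ C ⊆ U \ K ∧ IsCompact K' ∧ K' ⊆ U ∧ U ⊆ C ∪ K'

theorem compl_image {U : Set ℂ} (ho : IsOpen U) (hE : OneEnd U) {φ : ℂ → ℂ} (hd : DifferentiableOn ℂ φ U)
    (hi : InjOn φ U) (hb : Bornology.IsBounded (φ '' U)) : IsPreconnected (φ '' U)ᶜ := by
  obtain ⟨hV, ψ, hψ, hψ'⟩ := exists_holomorphic_inverse ho hd hi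
  refine (isPreconnected_iff_subset_of_fully_disjoint_closed hV.isClosed_compl).2 fun u v hu hv huv hd' => ?_
  have key : ∀ u v : Set ℂ, IsClosed u → IsClosed v → (φ '' U)ᶜ ⊆ u ∪ v → ∀ A B : Set ℂ, IsOpen A → IsOpen B →
      u ⊆ A → v ⊆ B → Disjoint A B → ∀ C K' : Set ℂ, IsCompact K' → K' ⊆ U → U ⊆ C ∪ K' → φ '' C ⊆ A →
      (φ '' U)ᶜ ⊆ u ∨ (φ '' U)ᶜ ⊆ v := fun u v hu hv huv A B hA hB uA vB hAB C K' k1 k2 k3 k4 => by
    have e : (φ '' U)ᶜ ∩ v = B \ φ '' K' := by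
      refine Subset.antisymm (fun z hz => ⟨vB hz.2, fun h => hz.1 (image_mono k2 h)⟩) fun z hz => ?_
      have hz' : z ∈ (φ '' U)ᶜ := by
        rintro ⟨w, hw, rfl⟩
        rcases k3 hw with h | h
        · exact disjoint_left.1 hAB (k4 ⟨w, h, rfl⟩) hz.1
        · exact hz.2 ⟨w, h, rfl⟩
      exact ⟨hz', (huv hz').resolve_left fun h => disjoint_left.1 hAB (uA h) hz.1⟩
    have hcl : IsClopen ((φ '' U)ᶜ ∩ v) := ⟨hV.isClosed_compl.inter hv,
      e ▸ hB.sdiff (k1.image_of_continuousOn (hd.continuousOn.mono k2)).isClosed⟩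
    rcases isClopen_iff.1 hcl with h | h
    · exact Or.inl fun z hz => (huv hz).resolve_right fun h' => (h ▸ (⟨hz, h'⟩ : z ∈ (φ '' U)ᶜ ∩ v) : z ∈ (∅ : Set ℂ))
    · exact Or.inr fun z _ => (h ▸ mem_univ z : z ∈ (φ '' U)ᶜ ∩ v).2
  obtain ⟨A, B, hA, hB, uA, vB, hAB⟩ := normal_separation hu hv hd'
  have hsub : (A ∪ B)ᶜ ⊆ φ '' U := fun z hz => by_contra fun h => hz (union_subset_union uA vB (huv h))
  have hK : IsCompact (A ∪ B)ᶜ := Metric.isCompact_of_isClosed_isBounded (hA.union hB).isClosed_compl (hb.subset hsub)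
  obtain ⟨C, K', c1, c2, c3, c4, c5⟩ := hE (ψ '' (A ∪ B)ᶜ) (hK.image_of_continuousOn (hψ.continuousOn.mono hsub)) (by
    rintro _ ⟨z, hz, rfl⟩
    obtain ⟨w, hw, rfl⟩ := hsub hz
    rwa [hψ' w hw])
  have hC : φ '' C ⊆ A ∪ B := by
    rintro _ ⟨w, hw, rfl⟩
    by_contra h
    exact (c2 hw).2 ⟨φ w, h, hψ' w (c2 hw).1⟩
  rcases (c1.image φ (hd.continuousOn.mono fun w hw => (c2 hw).1)).subset_or_subset hA hB hAB hC with h | h
  · exact key u v hu hv huv A B hA hB uA vB hAB C K' c3 c4 c5 h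
  · exact (key v u hv hu (union_comm u v ▸ huv) B A hB hA vB uA hAB.symm C K' c3 c4 c5 h).symm

theorem exists_sqrt {U : Set ℂ} (ho : IsOpen U) (hp : IsConnected U) (hE : OneEnd U) {φ : ℂ → ℂ}
    (hd : DifferentiableOn ℂ φ U) (hi : InjOn φ U) (hm : MapsTo φ U (ball 0 1)) (h0 : ∀ z ∈ U, φ z ≠ 0) :
    ∃ h : ℂ → ℂ, ContinuousOn h U ∧ ∀ z, h z ^ 2 = φ z := by
  classical
  have hb : Bornology.IsBounded (φ '' U) := isBounded_ball.subset hm.image_subset
  obtain ⟨L, hL, hL'⟩ := log_dom (isOpen_image_of_injOn ho hd hi) (hp.image φ hd.continuousOn) hb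
    (compl_image ho hE hd hi hb) (by rintro ⟨z, hz, h⟩; exact h0 z hz h)
  refine ⟨fun z => if z ∈ U then exp (L (φ z) / 2) else φ z ^ (((2 : ℕ) : ℂ)⁻¹), ?_, fun z => ?_⟩
  · exact ContinuousOn.congr (((hL.comp hd.continuousOn (mapsTo_image φ U)).div_const 2).cexp)
      fun z hz => if_pos hz
  · by_cases hz : z ∈ U
    · simp only [if_pos hz]
      rw [← exp_nat_mul, Nat.cast_ofNat, mul_div_cancel₀ _ two_ne_zero, hL' _ ⟨z, hz, rfl⟩]
    · simp only [if_neg hz]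
      exact cpow_nat_inv_pow _ two_ne_zero

/-- The square root trick: a non-surjective member of the family can be improved. -/
theorem adm_improve' {U : Set ℂ} (hUo : IsOpen U) (hUc : IsConnected U) (hE : OneEnd U) {z₀ : ℂ}
    (hz₀ : z₀ ∈ U) {f : ℂ → ℂ} (hf : Adm U z₀ f) (hf' : deriv f z₀ ≠ 0) {w : ℂ} (hw : ‖w‖ < 1)
    (hwf : w ∉ f '' U) : ∃ g, Adm U z₀ g ∧ ‖deriv f z₀‖ < ‖deriv g z₀‖ := by
  have hfn : ∀ z ∈ U, ‖f z‖ < 1 := fun z hz => mem_ball_zero_iff.1 (hf.maps hz)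
  set φ : ℂ → ℂ := fun z => mob w (f z) with hφ
  have hφd : ∀ z ∈ U, HasDerivAt φ
      ((1 - conj w * w) / (1 - conj w * f z) ^ 2 * deriv f z) z := fun z hz =>
    (hasDerivAt_mob hw (hfn z hz)).comp z (hf.diff.differentiableAt (hUo.mem_nhds hz)).hasDerivAt
  have hφne : ∀ z ∈ U, φ z ≠ 0 := by
    intro z hz h0
    apply hwf
    refine ⟨z, hz, mob_inj hw (hfn z hz) hw ?_⟩
    rw [mob_self]
    exact h0
  obtain ⟨h, hhc, hh⟩ := exists_sqrt hUo hUc hE (φ := φ)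
    (fun z hz => (hφd z hz).differentiableAt.differentiableWithinAt)
    (fun a ha b hb hab => hf.inj ha hb (mob_inj hw (hfn a ha) (hfn b hb) hab))
    (fun z hz => mem_ball_zero_iff.2 (norm_mob_lt hw (hfn z hz))) hφne
  have hhne : ∀ z ∈ U, h z ≠ 0 := by
    intro z hz h0
    apply hφne z hz
    rw [← hh z, h0]
    simp
  have hhd : ∀ z ∈ U, HasDerivAt h
      (((1 - conj w * w) / (1 - conj w * f z) ^ 2 * deriv f z) / (2 * h z)) z := by
    intro z hz
    refine HasDerivAt.of_comp_left (f := fun u : ℂ => u ^ 2) (hhc.continuousAt (hUo.mem_nhds hz))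
      (by simpa using hasDerivAt_pow 2 (h z)) (hφd z hz) (by simpa using hhne z hz) ?_
    exact Eventually.of_forall fun u => hh u
  have hhn : ∀ z ∈ U, ‖h z‖ < 1 := by
    intro z hz
    have h1 : ‖h z‖ ^ 2 < 1 := by
      rw [← norm_pow, hh z]
      exact norm_mob_lt hw (hfn z hz)
    nlinarith [norm_nonneg (h z)]
  have hhi : InjOn h U := by
    intro a ha b hb hab
    apply hf.inj ha hb
    apply mob_inj hw (hfn a ha) (hfn b hb)
    have h1 := hh a
    have h2 := hh b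
    rw [hab, h2] at h1
    exact h1.symm
  refine ⟨_, adm_mob hz₀ (fun z hz => (hhd z hz).differentiableAt.differentiableWithinAt) hhi
    (fun z hz => mem_ball_zero_iff.2 (hhn z hz)), ?_⟩
  rw [norm_deriv_mob_comp (hhd z₀ hz₀) (hhn z₀ hz₀)]
  have ht2 : ‖h z₀‖ ^ 2 = ‖w‖ := by
    rw [← norm_pow, hh z₀]
    simp [hφ, mob, hf.zero]
  have htpos : 0 < ‖h z₀‖ := norm_pos_iff.2 (hhne z₀ hz₀)
  have ht1 := hhn z₀ hz₀
  have hDpos : 0 < ‖deriv f z₀‖ := norm_pos_iff.2 hf'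
  have hwpos : 0 < 1 - ‖w‖ ^ 2 := by nlinarith [norm_nonneg w]
  rw [one_sub_conj_mul_self, hf.zero, mul_zero, sub_zero, one_pow, div_one, norm_div, norm_mul,
    norm_mul, norm_real, Real.norm_of_nonneg hwpos.le, ← ht2]
  set t := ‖h z₀‖
  set D := ‖deriv f z₀‖
  have h1t : 0 < 1 - t ^ 2 := by nlinarith
  have h2 : ‖(2 : ℂ)‖ = 2 := by simp
  rw [h2, lt_div_iff₀ h1t, lt_div_iff₀ (by positivity)]
  have h3 : 0 < D * (1 - t ^ 2) * (1 - t) ^ 2 := by
    have : 0 < 1 - t := by linarith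
    positivity
  nlinarith

/-- **Riemann mapping theorem**. -/
theorem riemann_mapping' {U : Set ℂ} (hUo : IsOpen U) (hUc : IsConnected U) (hE : OneEnd U)
    (hU : Bornology.IsBounded U) {z₀ : ℂ} (hz₀ : z₀ ∈ U) :
    ∃ f : ℂ → ℂ, DifferentiableOn ℂ f U ∧ InjOn f U ∧ f '' U = ball 0 1 ∧ f z₀ = 0 := by
  have hUp : IsPreconnected U := hUc.isPreconnected
  -- the family has a member with non-zero derivative
  obtain ⟨f₁, hf₁, hf₁'⟩ : ∃ f, Adm U z₀ f ∧ 0 < ‖deriv f z₀‖ := by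
    obtain ⟨h, hm, hi, hd⟩ : ∃ f : ℂ → ℂ, MapsTo f U (ball 0 1) ∧ InjOn f U ∧ ∀ z ∈ U, deriv f z ≠ 0 := by
      obtain ⟨R, hR0, hR⟩ := hU.subset_ball_lt 0 0
      have hR' : (R : ℂ) ≠ 0 := ofReal_ne_zero.2 hR0.ne'
      refine ⟨fun z => z / R, fun z hz => ?_, fun a _ b _ h => (div_left_inj' hR').1 h, fun z _ => by simpa using hR0.ne'⟩
      rw [mem_ball_zero_iff, norm_div, norm_real, Real.norm_of_nonneg hR0.le, div_lt_one hR0]
      exact mem_ball_zero_iff.1 (hR hz)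
    have hdd : ∀ z ∈ U, DifferentiableAt ℂ h z := fun z hz =>
      differentiableAt_of_deriv_ne_zero (hd z hz)
    refine ⟨_, adm_mob hz₀ (fun z hz => (hdd z hz).differentiableWithinAt) hi hm, ?_⟩
    have ha : ‖h z₀‖ < 1 := mem_ball_zero_iff.1 (hm hz₀)
    rw [norm_deriv_mob_comp (hdd z₀ hz₀).hasDerivAt ha]
    have : 0 < 1 - ‖h z₀‖ ^ 2 := by nlinarith [norm_nonneg (h z₀)]
    have := norm_pos_iff.2 (hd z₀ hz₀)
    positivity
  set S : Set ℝ := {t | ∃ f, Adm U z₀ f ∧ ‖deriv f z₀‖ = t} with hS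
  have hSne : S.Nonempty := ⟨_, f₁, hf₁, rfl⟩
  obtain ⟨R, hR, hRU⟩ := Metric.isOpen_iff.1 hUo z₀ hz₀
  have hSbd : BddAbove S := by
    refine ⟨1 / R, ?_⟩
    rintro t ⟨f, hf, rfl⟩
    refine Complex.norm_deriv_le_div_of_mapsTo_ball (hf.diff.mono hRU) ?_ hR
    intro z hz
    rw [hf.zero]
    exact ball_subset_closedBall (hf.maps (hRU hz))
  obtain ⟨u, -, hu, huS⟩ := exists_seq_tendsto_sSup hSne hSbd
  choose F hF hFu using huS
  obtain ⟨f, hlim⟩ := montel_ultrafilter hUo F (fun n => (hF n).diff)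
    (fun n z hz => ball_subset_closedBall ((hF n).maps hz)) (Ultrafilter.of atTop)
  have hle : ((Ultrafilter.of atTop : Ultrafilter ℕ) : Filter ℕ) ≤ atTop := Ultrafilter.of_le _
  have hfd : DifferentiableOn ℂ f U :=
    hlim.differentiableOn (Eventually.of_forall fun n => (hF n).diff) hUo
  have hderiv : ‖deriv f z₀‖ = sSup S := by
    have h1 := ((hlim.deriv (Eventually.of_forall fun n => (hF n).diff) hUo).tendsto_at hz₀).norm
    have h2 : Tendsto (fun n => ‖(deriv ∘ F) n z₀‖) (Ultrafilter.of atTop : Ultrafilter ℕ)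
        (𝓝 (sSup S)) := by
      refine (hu.mono_left hle).congr fun n => ?_
      simp [hFu n]
    exact tendsto_nhds_unique h1 h2
  have hpos : 0 < ‖deriv f z₀‖ := by
    rw [hderiv]
    exact hf₁'.trans_le (le_csSup hSbd ⟨f₁, hf₁, rfl⟩)
  have hnc : ¬ ∃ w, ∀ z ∈ U, f z = w := by
    rintro ⟨w, hw⟩
    have : f =ᶠ[𝓝 z₀] fun _ => w := by
      filter_upwards [hUo.mem_nhds hz₀] with z hz using hw z hz
    rw [this.deriv_eq] at hpos
    simp at hpos
  have hfi : InjOn f U :=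
    (hurwitz_injOn hUo hUp (fun n => (hF n).diff) (fun n => (hF n).inj) hlim).resolve_left hnc
  have hf0 : f z₀ = 0 := by
    have h1 := hlim.tendsto_at hz₀
    simp only [(hF _).zero] at h1
    exact tendsto_nhds_unique h1 tendsto_const_nhds
  have hfm : MapsTo f U (ball 0 1) := by
    have hopen : IsOpen (f '' U) :=
      ((hfd.analyticOnNhd hUo).is_constant_or_isOpen hUp).resolve_left hnc U Subset.rfl hUo
    have hsub : f '' U ⊆ closedBall 0 1 := by
      rintro _ ⟨z, hz, rfl⟩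
      exact isClosed_closedBall.mem_of_tendsto (hlim.tendsto_at hz)
        (Eventually.of_forall fun n => ball_subset_closedBall ((hF n).maps hz))
    have := interior_maximal hsub hopen
    rw [interior_closedBall _ one_ne_zero] at this
    exact fun z hz => this (mem_image_of_mem f hz)
  have hadm : Adm U z₀ f := ⟨hfd, hfi, hfm, hf0⟩
  refine ⟨f, hfd, hfi, Subset.antisymm hfm.image_subset fun w hw => ?_, hf0⟩
  by_contra hwf
  obtain ⟨g, hg, hlt⟩ := adm_improve' hUo hUc hE hz₀ hadm (norm_pos_iff.1 hpos)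
    (mem_ball_zero_iff.1 hw) hwf
  have : ‖deriv g z₀‖ ≤ sSup S := le_csSup hSbd ⟨g, hg, rfl⟩
  linarith

end Crest.Agent.R165.T
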