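import Crest.Agent.R165.T.Bdry
import Crest.Agent.R165.T.Log

/-! # R165/T/Tube: a closed curve with two-sided balls has two sides -/

set_option autoImplicit false
open Set Metric Filter Topology Complex Function

namespace Crest.Agent.R165.T

theorem ball_mono_tangent {ζ ν : ℂ} (hν : ‖ν‖ = 1) {s ρ : ℝ} (h : s ≤ ρ) : ball (ζ + s * ν) s ⊆ ball (ζ + ρ * ν) ρ := by
  refine ball_subset_ball' ?_
  rw [dist_eq_norm, show ζ + s * ν - (ζ + ρ * ν) = -(((ρ - s : ℝ) : ℂ) * ν) by push_cast; ring, norm_neg, norm_mul,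
    hν, norm_real, Real.norm_of_nonneg (by linarith)]
  linarith

theorem TBat.mono {D : Set ℂ} {ρ s : ℝ} {ζ ν : ℂ} (h : TBat D ρ ζ ν) (hs : s ≤ ρ) : TBat D s ζ ν := by
  refine ⟨h.1, (ball_mono_tangent h.1 hs).trans h.2.1, h.2.2.mono_left ?_⟩
  simpa only [mul_neg, ← sub_eq_add_neg] using ball_mono_tangent (ζ := ζ) (ν := -ν) (by rw [norm_neg, h.1]) hs

theorem TB.mono {D : Set ℂ} {ρ s : ℝ} (h : TB D ρ) (hs : s ≤ ρ) : TB D s :=
  fun ζ hζ => (h ζ hζ).imp fun _ h => h.mono hs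

structure Tube (γ n : ℝ → ℂ) (ρ : ℝ) : Prop where
  cγ : Continuous γ
  cn : Continuous n
  nn : ∀ t, ‖n t‖ = 1
  cpt : IsCompact (range γ)
  pos : 0 < ρ
  bp : ∀ t s, ρ ≤ ‖γ s - (γ t + ρ * n t)‖
  bm : ∀ t s, ρ ≤ ‖γ s - (γ t - ρ * n t)‖

theorem Tube.neg {γ n : ℝ → ℂ} {ρ : ℝ} (h : Tube γ n ρ) : Tube γ (fun t => -n t) ρ :=
  ⟨h.cγ, h.cn.neg, fun t => by rw [norm_neg, h.nn], h.cpt, h.pos,
    fun t s => by simpa only [mul_neg, ← sub_eq_add_neg] using h.bm t s,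
    fun t s => by simpa only [mul_neg, sub_neg_eq_add] using h.bp t s⟩

def collar (γ n : ℝ → ℂ) (s : ℝ) : Set ℂ := (fun p : ℝ × ℂ => γ p.1 + s * n p.1 + p.2) '' (univ ×ˢ ball 0 s)

theorem mem_collar {γ n : ℝ → ℂ} {s : ℝ} {z : ℂ} : z ∈ collar γ n s ↔ ∃ t, z ∈ ball (γ t + s * n t) s := by
  constructor
  · rintro ⟨⟨t, w⟩, hw, rfl⟩
    exact ⟨t, by simpa using hw.2⟩
  · rintro ⟨t, h⟩
    exact ⟨(t, z - (γ t + s * n t)), ⟨trivial, mem_ball_zero_iff.2 (mem_ball_iff_norm.1 h)⟩, by simp⟩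

theorem Tube.collar_pre {γ n : ℝ → ℂ} {ρ : ℝ} (h : Tube γ n ρ) (s : ℝ) : IsPreconnected (collar γ n s) :=
  (isPreconnected_univ.prod (convex_ball 0 s).isPreconnected).image _
    (((h.cγ.comp continuous_fst).add (continuous_const.mul (h.cn.comp continuous_fst))).add
      continuous_snd).continuousOn

def side (γ n : ℝ → ℂ) (ρ : ℝ) : Set ℂ := connectedComponentIn (range γ)ᶜ (γ 0 + ρ * n 0)

theorem Tube.collar_sub {γ n : ℝ → ℂ} {ρ : ℝ} (h : Tube γ n ρ) : collar γ n ρ ⊆ side γ n ρ :=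
  (h.collar_pre ρ).subset_connectedComponentIn (mem_collar.2 ⟨0, mem_ball_self h.pos⟩) fun z hz => by
    obtain ⟨t, ht⟩ := mem_collar.1 hz
    rintro ⟨s, rfl⟩
    exact (mem_ball_iff_norm.1 ht).not_ge (h.bp t s)

theorem Tube.ball_sub {γ n : ℝ → ℂ} {ρ : ℝ} (h : Tube γ n ρ) (t : ℝ) : ball (γ t + ρ * n t) ρ ⊆ side γ n ρ :=
  fun _ hz => h.collar_sub (mem_collar.2 ⟨t, hz⟩)

theorem side_eq {γ n : ℝ → ℂ} {ρ : ℝ} {z : ℂ} (hz : z ∈ side γ n ρ) :
    connectedComponentIn (range γ)ᶜ z = side γ n ρ := (connectedComponentIn_eq hz).symm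

theorem Tube.two {γ n : ℝ → ℂ} {ρ : ℝ} (h : Tube γ n ρ) {z : ℂ} (hz : z ∉ range γ) :
    z ∈ side γ n ρ ∨ z ∈ side γ (fun t => -n t) ρ := by
  obtain ⟨_, ⟨t, rfl⟩, ht⟩ := h.cpt.exists_infDist_eq_dist (range_nonempty γ) z
  have hb : ball z (dist z (γ t)) ⊆ (range γ)ᶜ := ht ▸ ball_infDist_subset_compl
  have h0 : 0 < dist z (γ t) := dist_pos.2 fun e => hz ⟨t, e.symm⟩
  have aux : ∀ m : ℝ → ℂ, Tube γ m ρ → z ∉ side γ m ρ → dist z (γ t) + ρ ≤ ‖z - γ t - ρ * m t‖ := fun m hm hn => by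
    rw [sub_sub, ← dist_eq_norm z, ← disjoint_ball_ball_iff h0 h.pos, Set.disjoint_left]
    intro w hw hw'
    apply hn
    rw [← side_eq (hm.ball_sub t hw')]
    exact (convex_ball z _).isPreconnected.subset_connectedComponentIn hw hb (mem_ball_self h0)
  by_contra hc
  rw [not_or] at hc
  have h1 := aux n h hc.1
  have h2 := aux _ h.neg hc.2
  rw [mul_neg, sub_neg_eq_add] at h2
  have h3 := parallelogram_law_with_norm ℝ (z - γ t) (ρ * n t)
  rw [norm_mul, norm_real, Real.norm_of_nonneg h.pos.le, h.nn, ← dist_eq_norm z] at h3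
  have hρ := h.pos
  nlinarith [mul_self_le_mul_self (by positivity) h1, mul_self_le_mul_self (by positivity) h2, mul_pos h0 hρ]

theorem Tube.main {γ n : ℝ → ℂ} {ρ : ℝ} (h : Tube γ n ρ) (hb : Bornology.IsBounded (side γ n ρ)) :
    {z : ℂ | z ∉ range γ ∧ Bornology.IsBounded (connectedComponentIn (range γ)ᶜ z)} = side γ n ρ ∧
    IsOpen (side γ n ρ) ∧ IsConnected (side γ n ρ) ∧ TB (side γ n ρ) ρ ∧
    IsPreconnected (closure (side γ n ρ))ᶜ ∧ OneEnd (side γ n ρ) := by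
  have hρ := h.pos
  have hΓ : IsOpen (range γ)ᶜ := h.cpt.isClosed.isOpen_compl
  have hu : ¬Bornology.IsBounded (side γ (fun t => -n t) ρ) := fun hb' =>
    NormedSpace.unbounded_univ ℝ ℂ (((h.cpt.isBounded.union hb).union hb').subset fun z _ => by
      by_cases hz : z ∈ range γ
      · exact Or.inl (Or.inl hz)
      · exact (h.two hz).elim (fun h => Or.inl (Or.inr h)) Or.inr)
  have hdis : Disjoint (side γ (fun t => -n t) ρ) (side γ n ρ) := Set.disjoint_left.2 fun z h1 h2 =>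
    hu (by rw [← side_eq h1, side_eq h2]; exact hb)
  have ho : IsOpen (side γ n ρ) := hΓ.connectedComponentIn
  have hdc : Disjoint (side γ (fun t => -n t) ρ) (closure (side γ n ρ)) :=
    hdis.closure_right hΓ.connectedComponentIn
  have hsub : side γ n ρ ⊆ (range γ)ᶜ := connectedComponentIn_subset _ _
  have hcl : ∀ z ∈ closure (side γ n ρ), z ∉ range γ → z ∈ side γ n ρ := fun z hz hz' =>
    (h.two hz').resolve_right fun h' => Set.disjoint_left.1 hdc h' hz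
  have hΓc : ∀ t, γ t ∈ closure (side γ n ρ) := fun t => closure_mono (h.ball_sub t) (by
    rw [closure_ball _ hρ.ne', mem_closedBall_iff_norm, sub_add_cancel_left, norm_neg, norm_mul, h.nn, norm_real,
      Real.norm_of_nonneg hρ.le, mul_one])
  have hfr : ∀ ζ ∈ frontier (side γ n ρ), ζ ∈ range γ := fun ζ hζ => by
    rw [ho.frontier_eq] at hζ
    by_contra hc
    exact hζ.2 (hcl ζ hζ.1 hc)
  have hT : ∀ t, TBat (side γ n ρ) ρ (γ t) (n t) := fun t => ⟨h.nn t, h.ball_sub t, hdc.mono_left (by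
    simpa only [mul_neg, ← sub_eq_add_neg] using h.neg.ball_sub t)⟩
  refine ⟨?_, ho, isConnected_connectedComponentIn_iff.2 (hsub (h.ball_sub 0 (mem_ball_self hρ))),
    fun ζ hζ => ?_, ?_, fun K hK hKD => ?_⟩
  · ext z
    refine ⟨fun hz => (h.two hz.1).resolve_right fun h' => hu (side_eq h' ▸ hz.2), fun hz => ⟨hsub hz, ?_⟩⟩
    rw [side_eq hz]; exact hb
  · obtain ⟨t, rfl⟩ := hfr ζ hζ
    exact ⟨_, hT t⟩
  · have : (closure (side γ n ρ))ᶜ = side γ (fun t => -n t) ρ :=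
      subset_antisymm (fun z hz => (h.two (by rintro ⟨t, rfl⟩; exact hz (hΓc t))).resolve_left
        fun h' => hz (subset_closure h')) hdc.subset_compl_right
    rw [this]; exact isPreconnected_connectedComponentIn
  · obtain ⟨δ, hδ, hδK⟩ := hK.exists_thickening_subset_open ho hKD
    obtain ⟨s, hs, hsρ, hsδ⟩ : ∃ s : ℝ, 0 < s ∧ s ≤ ρ ∧ 2 * s ≤ δ :=
      ⟨min ρ (δ / 2), by positivity, min_le_left _ _, by linarith [min_le_right ρ (δ / 2)]⟩
    refine ⟨collar γ n s, closure (side γ n ρ) \ thickening s (range γ), h.collar_pre s, fun z hz => ?_,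
      hb.isCompact_closure.diff isOpen_thickening,
      fun z hz => hcl z hz.1 fun h' => hz.2 (self_subset_thickening hs _ h'), fun z hz => ?_⟩
    · obtain ⟨t, ht⟩ := mem_collar.1 hz
      refine ⟨((hT t).mono hsρ).2.1 ht, fun hzK => hsub (hδK (mem_thickening_iff.2 ⟨z, hzK, ?_⟩)) ⟨t, rfl⟩⟩
      have h1 := dist_triangle_right (γ t) z (γ t + s * n t)
      rw [dist_self_add_right, norm_mul, h.nn, norm_real, Real.norm_of_nonneg hs.le] at h1
      linarith [mem_ball.1 ht]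
    · by_cases hz' : z ∈ thickening s (range γ)
      · obtain ⟨w, hw, hzw⟩ := mem_thickening_iff.1 hz'
        obtain ⟨ζ, hζ, h0, hzb, hmin⟩ := exists_near ho (fun e => hsub (e ▸ mem_univ (γ 0)) ⟨0, rfl⟩) hz
        obtain ⟨t, rfl⟩ := hfr ζ hζ
        have := hmin w fun h' => hsub h' hw
        rw [dist_eq_norm] at hzw
        exact Or.inl (mem_collar.2 ⟨t, ((hT t).mono hsρ).mem_ball hs h0 hzb (by linarith)⟩)
      · exact Or.inr ⟨subset_closure hz, hz'⟩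

theorem Tube.dom {γ n : ℝ → ℂ} {ρ : ℝ} (h : Tube γ n ρ) {D : Set ℂ}
    (hD : D = {z : ℂ | z ∉ range γ ∧ Bornology.IsBounded (connectedComponentIn (range γ)ᶜ z)}) (hne : D.Nonempty) :
    Bornology.IsBounded D ∧ IsOpen D ∧ IsConnected D ∧ TB D ρ ∧ IsPreconnected (closure D)ᶜ ∧ OneEnd D := by
  obtain ⟨z, hz⟩ := hne
  rw [hD] at hz
  rcases h.two hz.1 with h' | h'
  · have hb := side_eq h' ▸ hz.2
    have := h.main hb
    rw [hD, this.1]; exact ⟨hb, this.2⟩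
  · have hb := side_eq h' ▸ hz.2
    have := h.neg.main hb
    rw [hD, this.1]; exact ⟨hb, this.2⟩

end Crest.Agent.R165.T
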