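import Crest.Agent.R165.Lat
import Crest.Agent.R165.T.Tube

/-! # R165/T/Path: nearest-neighbour connectivity of the exterior of a discretised domain -/

set_option autoImplicit false
open Set Metric Filter Topology Complex Function
open scoped ComplexConjugate

namespace Crest.Agent.R165.T

/-- nearest-neighbour paths inside the set `A` -/
def Conn (A : Set Site) : Site → Site → Prop :=
  Relation.ReflTransGen fun b b' => b ∈ A ∧ b' ∈ A ∧ ∃ α, b' = b + dv α

theorem Conn.refl {A : Set Site} {x : Site} : Conn A x x := Relation.ReflTransGen.refl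
theorem Conn.trans {A : Set Site} {x y z : Site} (h : Conn A x y) (h' : Conn A y z) : Conn A x z :=
  Relation.ReflTransGen.trans h h'
theorem Conn.step {A : Set Site} {x y : Site} (hx : x ∈ A) (hy : y ∈ A) (α : Fin 4) (h : y = x + dv α) : Conn A x y :=
  Relation.ReflTransGen.single ⟨hx, hy, α, h⟩

theorem Conn.symm {A : Set Site} {x y : Site} (h : Conn A x y) : Conn A y x := by
  induction h with
  | refl => exact .refl
  | tail _ h2 ih =>
    obtain ⟨h1, h2, α, rfl⟩ := h2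
    refine (Conn.step h2 h1 (α + 2) ?_).trans ih
    fin_cases α <;> simp [dv, Prod.ext_iff]

theorem Conn.mono {A B : Set Site} (hAB : A ⊆ B) {x y : Site} (h : Conn A x y) : Conn B x y :=
  Relation.ReflTransGen.mono (fun _ _ h => ⟨hAB h.1, hAB h.2.1, h.2.2⟩) _ _ h

def Rect (z z' y : Site) : Prop :=
  min z.1 z'.1 ≤ y.1 ∧ y.1 ≤ max z.1 z'.1 ∧ min z.2 z'.2 ≤ y.2 ∧ y.2 ≤ max z.2 z'.2

theorem conn_rect {A : Set Site} (z' : Site) : ∀ (n : ℕ) (z : Site), (z.1 - z'.1).natAbs + (z.2 - z'.2).natAbs = n →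
    (∀ y, Rect z z' y → y ∈ A) → Conn A z z' := by
  intro n
  induction n with
  | zero =>
    intro z h _
    obtain rfl : z = z' := Prod.ext (by omega) (by omega)
    exact .refl
  | succ n ih =>
    intro z h hA
    obtain ⟨α, h1, h2⟩ : ∃ α, ((z + dv α).1 - z'.1).natAbs + ((z + dv α).2 - z'.2).natAbs = n ∧
        ∀ y, Rect (z + dv α) z' y → Rect z z' y := by
      rcases lt_trichotomy z.1 z'.1 with h1 | h1 | h1
      · exact ⟨0, by simp [dv]; omega, fun y hy => by simp only [Rect, dv] at *; simp at hy; omega⟩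
      · rcases lt_or_gt_of_ne (show z.2 ≠ z'.2 by omega) with h2 | h2
        · exact ⟨1, by simp [dv]; omega, fun y hy => by simp only [Rect, dv] at *; simp at hy; omega⟩
        · exact ⟨3, by simp [dv]; omega, fun y hy => by simp only [Rect, dv] at *; simp at hy; omega⟩
      · exact ⟨2, by simp [dv]; omega, fun y hy => by simp only [Rect, dv] at *; simp at hy; omega⟩
    exact (Conn.step (hA z (by simp [Rect])) (hA _ (h2 _ (by simp [Rect]))) α rfl).trans
      (ih _ h1 fun y hy => hA y (h2 y hy))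

theorem conn_line {A : Set Site} (z : Site) (α : Fin 4) (k : ℕ) (h : ∀ j : ℕ, j ≤ k → z + j • dv α ∈ A) :
    Conn A z (z + k • dv α) := by
  induction k with
  | zero => simpa using Conn.refl
  | succ k ih =>
    exact (ih fun j hj => h j (by omega)).trans (Conn.step (h k (by omega)) (h _ le_rfl) α (by
      rw [succ_nsmul, add_assoc]))

theorem toC_add (x y : Site) : toC (x + y) = toC x + toC y := by
  apply Complex.ext <;> simp [toC]

theorem toC_nsmul (k : ℕ) (y : Site) : toC (k • y) = k * toC y := by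
  apply Complex.ext <;> simp [toC]

theorem norm_toC_dv (α : Fin 4) : ‖toC (dv α)‖ = 1 := by
  fin_cases α <;> simp [toC, dv, Complex.norm_eq_sqrt_sq_add_sq]

theorem norm_le_of_re_im {w : ℂ} {r c : ℝ} (h1 : |w.re| ≤ r) (h2 : |w.im| ≤ r) (hc : 2 * r ^ 2 ≤ c ^ 2) (hc0 : 0 ≤ c) :
    ‖w‖ ≤ c := by
  refine le_of_sq_le_sq ?_ hc0
  rw [Complex.sq_norm, normSq_apply]
  nlinarith [sq_abs w.re, sq_abs w.im, pow_le_pow_left₀ (abs_nonneg _) h1 2, pow_le_pow_left₀ (abs_nonneg _) h2 2]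

theorem norm_toC_sub {x y : Site} {r : ℕ} (h : supd x y ≤ r) : ‖toC x - toC y‖ ≤ 3 / 2 * r := by
  have h1 : |x.1 - y.1| ≤ r := by simp only [supd] at h; rw [abs_le]; omega
  have h2 : |x.2 - y.2| ≤ r := by simp only [supd] at h; rw [abs_le]; omega
  refine norm_le_of_re_im (r := r) ?_ ?_ (by nlinarith [sq_nonneg (r : ℝ)]) (by positivity)
  · simp only [toC, sub_re]; exact_mod_cast h1
  · simp only [toC, sub_im]; exact_mod_cast h2

theorem supd_le_of_norm {x y : Site} {r : ℕ} (h : ‖toC x - toC y‖ ≤ r) : supd x y ≤ r := by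
  have h1 := (abs_re_le_norm _).trans h
  have h2 := (abs_im_le_norm _).trans h
  simp only [toC, sub_re, sub_im] at h1 h2
  have h1' : |x.1 - y.1| ≤ r := by exact_mod_cast h1
  have h2' : |x.2 - y.2| ≤ r := by exact_mod_cast h2
  rw [abs_le] at h1' h2'
  simp only [supd]; omega

theorem mem_box {x y : Site} {R : ℕ} : y ∈ box x R ↔ supd x y ≤ R := by
  simp only [box, supd, Finset.mem_product, Finset.mem_Icc]; omega

theorem exists_site (p : ℂ) : ∃ z : Site, ‖toC z - p‖ ≤ 3 / 2 :=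
  ⟨(⌊p.re⌋, ⌊p.im⌋), norm_le_of_re_im (r := 1)
    (by simp only [toC, sub_re]; rw [abs_le]; constructor <;> linarith [Int.floor_le p.re, Int.lt_floor_add_one p.re])
    (by simp only [toC, sub_im]; rw [abs_le]; constructor <;> linarith [Int.floor_le p.im, Int.lt_floor_add_one p.im])
    (by norm_num) (by norm_num)⟩

theorem exists_frontier {G : Set ℂ} (ho : IsOpen G) {c p q : ℂ} {r : ℝ} (hp : p ∈ G) (hq : q ∉ G)
    (h1 : ‖p - c‖ ≤ r) (h2 : ‖q - c‖ ≤ r) : ∃ ζ ∈ frontier G, ‖ζ - c‖ ≤ r := by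
  by_contra! h
  refine hq ((convex_closedBall c r).isPreconnected.subset_of_closure_inter_subset ho
    ⟨p, mem_closedBall_iff_norm.2 h1, hp⟩ (fun z hz => ?_) (mem_closedBall_iff_norm.2 h2))
  by_contra hc
  exact (h z (ho.frontier_eq ▸ ⟨hz.1, hc⟩)).not_ge (mem_closedBall_iff_norm.1 hz.2)

/-- real inner product -/
def ip (u v : ℂ) : ℝ := (u * conj v).re

theorem ip_le (u v : ℂ) : |ip u v| ≤ ‖u‖ * ‖v‖ := (abs_re_le_norm _).trans_eq (by rw [norm_mul, norm_conj])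

theorem mem_ball_ip {ζ ν w : ℂ} {ρ : ℝ} (hν : ‖ν‖ = 1) (hρ : 0 < ρ) (h : ‖w - ζ‖ ^ 2 < 2 * ρ * ip (w - ζ) ν) :
    w ∈ ball (ζ + ρ * ν) ρ := by
  rw [mem_ball_iff_norm, ← sub_sub]
  refine lt_of_pow_lt_pow_left₀ 2 hρ.le ?_
  have h1 : ((w - ζ) * conj ((ρ : ℂ) * ν)).re = ρ * ip (w - ζ) ν := by
    rw [map_mul, conj_ofReal, mul_left_comm, re_ofReal_mul, ip]
  rw [Complex.sq_norm, normSq_sub, h1, ← Complex.sq_norm, ← Complex.sq_norm, norm_mul, hν, norm_real,
    Real.norm_of_nonneg hρ.le]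
  linarith

theorem TBat.ins {G : Set ℂ} {ζ ν w : ℂ} {ρ : ℝ} (h : TBat G ρ ζ ν) (hρ : 0 < ρ)
    (hw : ‖w - ζ‖ ^ 2 < 2 * ρ * ip (w - ζ) ν) : w ∈ G := h.2.1 (mem_ball_ip h.1 hρ hw)

theorem TBat.out {G : Set ℂ} {ζ ν w : ℂ} {ρ : ℝ} (h : TBat G ρ ζ ν) (hρ : 0 < ρ)
    (hw : ‖w - ζ‖ ^ 2 < 2 * ρ * -ip (w - ζ) ν) : w ∉ G := fun hG =>
  Set.disjoint_left.1 h.2.2 (by
    simpa only [mul_neg, ← sub_eq_add_neg] using mem_ball_ip (ν := -ν) (ζ := ζ) (w := w) (by rw [norm_neg, h.1]) hρ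
      (by simpa only [ip, map_neg, mul_neg, neg_re] using hw)) (subset_closure hG)

theorem exists_dir {ν : ℂ} (hν : ‖ν‖ = 1) : ∃ α, ip (toC (dv α)) ν ≤ -(7 / 10) := by
  by_contra! h
  have h0 := h 0; have h1 := h 1; have h2 := h 2; have h3 := h 3
  simp [ip, toC, dv] at h0 h1 h2 h3
  have := Complex.sq_norm ν
  rw [hν, normSq_apply] at this
  nlinarith

theorem step_out {G : Set ℂ} (ho : IsOpen G) {ρ : ℝ} (hT : TB G ρ) (hρ : 100 ≤ ρ) {ζ ν w d : ℂ} (hν : TBat G ρ ζ ν)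
    (hd : ‖d‖ = 1) (hdν : ip d ν ≤ -(7 / 10)) (hw : w ∉ G) (hwζ : 16 * (‖w - ζ‖ + 1) ≤ ρ) : w + d ∉ G := fun hp => by
  obtain ⟨ξ, hξ, h1⟩ := exists_frontier ho (c := w) (r := 1) hp hw (by simp [hd]) (by simp)
  obtain ⟨μ, hμ⟩ := hT ξ hξ
  have hρ0 : 0 < ρ := by linarith
  have h2 : ‖μ - ν‖ ≤ 1 / 2 := by
    have := hμ.normal hν hρ0
    refine le_of_sq_le_sq ?_ (by norm_num)
    nlinarith [norm_sub_le_norm_sub_add_norm_sub ξ w ζ]
  have h3 : ip d μ ≤ -(1 / 5) := by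
    have h4 := (abs_le.1 (ip_le d (μ - ν))).2
    have h5 : ip d (μ - ν) = ip d μ - ip d ν := by simp only [ip, map_sub, mul_sub, sub_re]
    rw [hd] at h4; linarith
  have h4 : 2 * ρ * -ip (w + d - ξ) μ ≤ ‖w + d - ξ‖ ^ 2 := le_of_not_gt fun h => hμ.out hρ0 h hp
  have h5 : 2 * ρ * ip (w - ξ) μ ≤ ‖w - ξ‖ ^ 2 := le_of_not_gt fun h => hw (hμ.ins hρ0 h)
  have h6 : ip (w + d - ξ) μ = ip (w - ξ) μ + ip d μ := by
    simp only [ip, ← add_re]; congr 1; ring
  have h7 : ‖w + d - ξ‖ ≤ 2 := by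
    rw [add_sub_right_comm]
    refine (norm_add_le _ _).trans ?_
    rw [norm_sub_rev, hd]; linarith
  rw [norm_sub_rev w] at h5
  nlinarith [pow_le_pow_left₀ (norm_nonneg _) h7 2, pow_le_pow_left₀ (norm_nonneg _) h1 2]

theorem conn_loc {G : Set ℂ} (ho : IsOpen G) {ρ : ℝ} (hT : TB G ρ) {z z' : Site} {r : ℕ} (hr : 200 * (r : ℝ) ≤ ρ)
    (hz : toC z ∉ G) (hz' : toC z' ∉ G) (h : supd z z' ≤ r) :
    Conn {y | toC y ∉ G ∧ supd z y ≤ 6 * r} z z' := by
  have hR : ∀ y, Rect z z' y → supd y z ≤ r := fun y hy => by simp only [Rect, supd] at *; omega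
  by_cases hA : ∀ y, Rect z z' y → toC y ∉ G
  · refine conn_rect z' _ z rfl fun y hy => ⟨hA y hy, ?_⟩
    have := hR y hy
    simp only [supd] at *; omega
  push Not at hA
  obtain ⟨y₀, hy₀, hy₀G⟩ := hA
  have hr1 : (1 : ℝ) ≤ r := by
    rcases Nat.eq_zero_or_pos r with rfl | h0
    · obtain rfl : y₀ = z := by
        have := hR y₀ hy₀
        simp only [supd] at this
        exact Prod.ext (by omega) (by omega)
      exact absurd hy₀G hz
    · exact_mod_cast h0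
  obtain ⟨ζ, hζ, hζz⟩ := exists_frontier ho (c := toC z) hy₀G hz (norm_toC_sub (hR y₀ hy₀)) (by simp)
  obtain ⟨ν, hν⟩ := hT ζ hζ
  obtain ⟨α, hα⟩ := exists_dir hν.1
  have hN : ∀ y, Rect z z' y → ∀ j : ℕ, ‖toC (y + j • dv α) - ζ‖ ≤ 3 * r + j := fun y hy j => by
    rw [toC_add, toC_nsmul, add_sub_right_comm]
    refine (norm_add_le _ _).trans ?_
    rw [norm_mul, norm_toC_dv, norm_natCast]
    have h1 := norm_sub_le_norm_sub_add_norm_sub (toC y) (toC z) ζ
    rw [norm_sub_rev (toC z)] at h1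
    linarith [norm_toC_sub (hR y hy)]
  have hS : ∀ y, Rect z z' y → ∀ j : ℕ, j ≤ 5 * r → supd z (y + j • dv α) ≤ 6 * r := fun y hy j hj => by
    have := hR y hy
    fin_cases α <;> simp [supd, dv] at * <;> omega
  have hL : ∀ y, Rect z z' y → toC y ∉ G → ∀ j : ℕ, j ≤ 5 * r → toC (y + j • dv α) ∉ G := fun y hy hG j => by
    induction j with
    | zero => simpa using hG
    | succ j ih =>
      intro hj
      rw [succ_nsmul, ← add_assoc, toC_add]
      have h1 := hN y hy j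
      have h2 : (j : ℝ) + 1 ≤ 5 * r := by exact_mod_cast hj
      exact step_out ho hT (by linarith) hν (norm_toC_dv α) hα (ih (by omega)) (by linarith)
  have hzz : Rect z z' z := by simp [Rect]
  have hzz' : Rect z z' z' := by simp [Rect]
  refine Conn.trans (Conn.trans (conn_line z α (5 * r) fun j hj => ⟨hL z hzz hz j hj, hS z hzz j hj⟩)
    (conn_rect _ _ _ rfl fun y hy => ?_))
    (Conn.symm (conn_line z' α (5 * r) fun j hj => ⟨hL z' hzz' hz' j hj, hS z' hzz' j hj⟩))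
  obtain ⟨y, rfl⟩ : ∃ y', y = y' + (5 * r) • dv α := ⟨y - (5 * r) • dv α, by simp⟩
  have hy' : Rect z z' y := by
    simp only [Rect, Prod.fst_add, Prod.snd_add] at hy ⊢; omega
  refine ⟨hν.out (by linarith) ?_, hS y hy' _ le_rfl⟩
  have h1 := hN y hy' (5 * r)
  have h2 := hN y hy' 0
  have h3 : ip (toC (y + (5 * r) • dv α) - ζ) ν = ip (toC y - ζ) ν + 5 * r * ip (toC (dv α)) ν := by
    rw [toC_add, toC_nsmul, add_sub_right_comm, ip, ip, ip, add_mul, add_re, mul_assoc, ← ofReal_natCast,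
      re_ofReal_mul]
    push_cast; ring
  have h4 := (abs_le.1 (ip_le (toC y - ζ) ν)).2
  simp only [zero_smul, add_zero, Nat.cast_zero] at h2
  rw [hν.1] at h4
  push_cast at h1
  have h5 : r / 2 ≤ -ip (toC (y + (5 * r) • dv α) - ζ) ν := by nlinarith
  have h6 := pow_le_pow_left₀ (norm_nonneg _) h1 2
  have h7 := mul_le_mul hr h5 (by positivity) (by linarith)
  nlinarith

theorem conn_glob {G : Set ℂ} (ho : IsOpen G) {ρ : ℝ} (hT : TB G ρ) (hρ : 3000 ≤ ρ) (hc : IsPreconnected (closure G)ᶜ)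
    {z z' : Site} (hz : toC z ∉ G) (hz' : toC z' ∉ G) : Conn {y | toC y ∉ G} z z' := by
  have hc' : IsPreconnected Gᶜ := hc.subset_closure (compl_subset_compl.2 subset_closure) fun p hp => by
    by_cases h : p ∈ closure G
    · obtain ⟨ν, hν⟩ := hT p (ho.frontier_eq ▸ ⟨h, hp⟩)
      refine closure_mono hν.2.2.subset_compl_right ?_
      rw [closure_ball _ (by linarith), mem_closedBall_iff_norm, sub_sub_cancel, norm_mul, hν.1, norm_real,
        Real.norm_of_nonneg (by linarith), mul_one]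
    · exact subset_closure h
  have hs : ∀ p ∉ G, ∃ y, toC y ∉ G ∧ ‖toC y - p‖ ≤ 7 := fun p hp => by
    obtain ⟨w, hw⟩ := exists_site p
    by_cases hwG : toC w ∈ G
    · obtain ⟨ζ, hζ, h1⟩ := exists_frontier ho (c := p) hwG hp hw (by simp; norm_num)
      obtain ⟨ν, hν⟩ := hT.mono (show 2 ≤ ρ by linarith) ζ hζ
      obtain ⟨y, hy⟩ := exists_site (ζ - (2 : ℝ) * ν)
      refine ⟨y, fun h => Set.disjoint_left.1 hν.2.2 (mem_ball_iff_norm.2 (by linarith)) (subset_closure h), ?_⟩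
      have h2 := norm_sub_le_norm_sub_add_norm_sub (toC y) (ζ - (2 : ℝ) * ν) p
      have h3 : ‖ζ - (2 : ℝ) * ν - p‖ ≤ ‖ζ - p‖ + 2 := by
        rw [sub_right_comm]
        refine (norm_sub_le _ _).trans_eq ?_
        rw [norm_mul, hν.1]; simp
      linarith
    · exact ⟨w, hwG, by linarith⟩
  have hl : ∀ p q : ℂ, ‖p - q‖ ≤ 1 → ∀ y y', toC y ∉ G → toC y' ∉ G → ‖toC y - p‖ ≤ 7 → ‖toC y' - q‖ ≤ 7 →
      Conn {y | toC y ∉ G} y y' := fun p q hpq y y' hy hy' h1 h2 => by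
    refine (conn_loc ho hT (r := 15) (by push_cast; linarith) hy hy' (supd_le_of_norm ?_)).mono fun _ h => h.1
    have h3 := norm_sub_le_norm_sub_add_norm_sub (toC y) p (toC y')
    have h4 := norm_sub_le_norm_sub_add_norm_sub p q (toC y')
    rw [norm_sub_rev q] at h4
    push_cast; linarith
  refine hc'.induction₂' (fun p q => ∀ y y', toC y ∉ G → toC y' ∉ G → ‖toC y - p‖ ≤ 7 → ‖toC y' - q‖ ≤ 7 →
      Conn {y | toC y ∉ G} y y') (fun p _ => ?_) (fun p q s _ hq _ h1 h2 y y' hy hy' h3 h4 => ?_) hz hz' z z' hz hz'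
      (by simp) (by simp)
  · filter_upwards [nhdsWithin_le_nhds (closedBall_mem_nhds p one_pos)] with q hq
    exact ⟨hl p q (mem_closedBall_iff_norm'.1 hq), hl q p (mem_closedBall_iff_norm.1 hq)⟩
  · obtain ⟨w, hw, hw'⟩ := hs q hq
    exact (h1 y w hy hw h3 hw').trans (h2 w y' hw hy' hw' h4)

end Crest.Agent.R165.T
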